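import Mathlib

/-! The Dvoretzky-Rogers lemma for functionals. -/

namespace Vale.Agent.P129

open Finset Module

theorem det_one_add_proj {𝕜 E : Type*} [Field 𝕜] [AddCommGroup E] [Module 𝕜 E]
    [FiniteDimensional 𝕜 E] (W : Submodule 𝕜 E) (f : E →ₗ[𝕜] E) (h : LinearMap.IsProj W f) :
    LinearMap.det (LinearMap.id + f) = 2 ^ finrank 𝕜 W := by
  set e := W.prodEquivOfIsCompl (LinearMap.ker f) h.isCompl with he
  have h1 : LinearMap.id + f = e.toLinearMap ∘ₗ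
      (LinearMap.prodMap ((2 : 𝕜) • LinearMap.id) LinearMap.id) ∘ₗ e.symm.toLinearMap := by
    rw [← LinearMap.comp_assoc, LinearEquiv.eq_comp_toLinearMap_symm]
    ext x
    · simp [he, h.map_id x x.2, two_smul]
    · simp [he]
  rw [h1, LinearMap.det_conj, LinearMap.det_prodMap, LinearMap.det_smul]
  simp

theorem dr_step {𝕜 E Y : Type*} [RCLike 𝕜] [NormedAddCommGroup Y] [NormedSpace 𝕜 Y]
    [NormedAddCommGroup E] [InnerProductSpace 𝕜 E] [FiniteDimensional 𝕜 E] (m : ℕ) (hm : 0 < m)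
    (hE : finrank 𝕜 E = m + m) (u : E →L[𝕜] Y) (hu : ‖u‖ ≤ 1)
    (hmax : ∀ T : E →L[𝕜] E, ‖u.comp T‖ ≤ 1 → ‖T.det‖ ≤ 1) (W : Submodule 𝕜 E)
    (hW : m ≤ finrank 𝕜 W) : ∃ a ∈ W, ‖a‖ = 1 ∧ 2 / 5 ≤ ‖u a‖ := by
  by_contra hcon
  push Not at hcon
  have hy : ∀ y ∈ W, ‖u y‖ ≤ 2 / 5 * ‖y‖ := by
    intro y hy
    by_cases h0 : y = 0
    · simp [h0]
    have hn : 0 < ‖y‖ := norm_pos_iff.2 h0
    have h1 := hcon (((‖y‖⁻¹ : ℝ) : 𝕜) • y) (W.smul_mem _ hy) (by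
      rw [norm_smul, RCLike.norm_ofReal, abs_of_pos (inv_pos.2 hn), inv_mul_cancel₀ hn.ne'])
    rw [map_smul, norm_smul, RCLike.norm_ofReal, abs_of_pos (inv_pos.2 hn),
      inv_mul_lt_iff₀ hn] at h1
    linarith
  have : CompleteSpace W := FiniteDimensional.complete 𝕜 W
  set P := W.starProjection with hP
  set T : E →L[𝕜] E := (((5 / 7 : ℝ) : 𝕜)) • (ContinuousLinearMap.id 𝕜 E + P) with hT
  have hT1 : ‖u.comp T‖ ≤ 1 := by
    refine ContinuousLinearMap.opNorm_le_bound _ zero_le_one fun x => ?_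
    have h1 : ‖u x‖ ≤ ‖x‖ := (u.le_opNorm x).trans (by nlinarith [norm_nonneg x])
    have h2 : ‖u (P x)‖ ≤ 2 / 5 * ‖x‖ :=
      (hy _ (W.starProjection_apply_mem x)).trans (by
        have := W.norm_starProjection_apply_le x
        linarith)
    have h3 : (u.comp T) x = (((5 / 7 : ℝ) : 𝕜)) • (u x + u (P x)) := by simp [hT]
    rw [h3, norm_smul, RCLike.norm_ofReal, abs_of_pos (by norm_num)]
    have := norm_add_le (u x) (u (P x))
    linarith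
  have hproj : LinearMap.IsProj W (P : E →ₗ[𝕜] E) :=
    ⟨fun x => W.starProjection_apply_mem x, fun x hx => by
      simpa [hP] using Submodule.starProjection_eq_self_iff.2 hx⟩
  have hdet : T.det = (((5 / 7 : ℝ) : 𝕜)) ^ (m + m) * 2 ^ finrank 𝕜 W := by
    have : (T : E →ₗ[𝕜] E) = (((5 / 7 : ℝ) : 𝕜)) • (LinearMap.id + (P : E →ₗ[𝕜] E)) := by
      ext x; simp [hT]
    rw [ContinuousLinearMap.det, this, LinearMap.det_smul, det_one_add_proj W _ hproj, hE]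
  have h5 := hmax T hT1
  rw [hdet, norm_mul, norm_pow, norm_pow, RCLike.norm_ofReal, abs_of_pos (by norm_num),
    RCLike.norm_two] at h5
  have h6 : (2 : ℝ) ^ m ≤ 2 ^ finrank 𝕜 W := pow_le_pow_right₀ (by norm_num) hW
  have h7 : (1 : ℝ) < (5 / 7 * (5 / 7) * 2) ^ m := one_lt_pow₀ (by norm_num) hm.ne'
  rw [mul_pow, mul_pow, ← pow_add] at h7
  have h8 : (0 : ℝ) < (5 / 7) ^ (m + m) := by positivity
  nlinarith

theorem dr_ind {𝕜 E Y : Type*} [RCLike 𝕜] [NormedAddCommGroup Y] [NormedSpace 𝕜 Y]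
    [NormedAddCommGroup E] [InnerProductSpace 𝕜 E] [FiniteDimensional 𝕜 E] (m : ℕ)
    (hE : finrank 𝕜 E = m + m) (u : E →L[𝕜] Y) (hu : ‖u‖ ≤ 1)
    (hmax : ∀ T : E →L[𝕜] E, ‖u.comp T‖ ≤ 1 → ‖T.det‖ ≤ 1) (k : ℕ) (hk : k ≤ m) :
    ∃ a : Fin k → E, Orthonormal 𝕜 a ∧ ∀ i, 2 / 5 ≤ ‖u (a i)‖ := by
  induction k with
  | zero => exact ⟨Fin.elim0, by simp, fun i => i.elim0⟩
  | succ k ih =>
    obtain ⟨a, ha, ha2⟩ := ih (by omega)
    have h1 := Submodule.finrank_add_finrank_orthogonal (Submodule.span 𝕜 (Set.range a))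
    have h2 : finrank 𝕜 (Submodule.span 𝕜 (Set.range a)) ≤ k := by
      simpa [Set.finrank] using finrank_range_le_card (R := 𝕜) a
    obtain ⟨x, hx, hx1, hx2⟩ := dr_step m (by omega) hE u hu hmax
      (Submodule.span 𝕜 (Set.range a))ᗮ (by omega)
    refine ⟨Matrix.vecCons x a, orthonormal_vecCons_iff.2 ⟨hx1, fun i => ?_, ha⟩, fun i => ?_⟩
    · exact Submodule.inner_left_of_mem_orthogonal (Submodule.subset_span (Set.mem_range_self i)) hx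
    · refine Fin.cases ?_ (fun j => ?_) i
      · simpa using hx2
      · simpa using ha2 j

theorem dr_max {𝕜 E Y : Type*} [RCLike 𝕜] [NormedAddCommGroup Y] [NormedSpace 𝕜 Y]
    [NormedAddCommGroup E] [InnerProductSpace 𝕜 E] [FiniteDimensional 𝕜 E]
    (u0 : E →L[𝕜] Y) (h0 : LinearMap.ker (u0 : E →ₗ[𝕜] Y) = ⊥) :
    ∃ u : E →L[𝕜] Y, ‖u‖ ≤ 1 ∧ ∀ T : E →L[𝕜] E, ‖u.comp T‖ ≤ 1 → ‖T.det‖ ≤ 1 := by
  obtain ⟨C, -, hC⟩ := LinearMap.exists_antilipschitzWith (u0 : E →ₗ[𝕜] Y) h0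
  have : ProperSpace (E →L[𝕜] E) := FiniteDimensional.proper_rclike 𝕜 _
  set K : Set (E →L[𝕜] E) := {A | ‖u0.comp A‖ ≤ 1} with hK
  have hcl : IsClosed K := isClosed_le (by fun_prop) continuous_const
  have hbd : Bornology.IsBounded K := by
    refine (Metric.isBounded_iff_subset_closedBall 0).2 ⟨C, fun A hA => ?_⟩
    rw [mem_closedBall_zero_iff]
    refine ContinuousLinearMap.opNorm_le_bound _ C.2 fun x => ?_
    have h1 : ‖A x‖ ≤ C * ‖u0 (A x)‖ := by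
      simpa using hC.le_mul_dist (A x) 0
    have h2 : ‖u0 (A x)‖ ≤ ‖x‖ := by
      have := (u0.comp A).le_opNorm x
      have h3 : ‖u0.comp A‖ ≤ 1 := hA
      simp only [ContinuousLinearMap.comp_apply] at this
      nlinarith [norm_nonneg x]
    exact h1.trans (mul_le_mul_of_nonneg_left h2 C.2)
  have hc := Metric.isCompact_of_isClosed_isBounded hcl hbd
  have hpos : (0 : ℝ) < (‖u0‖ + 1)⁻¹ := by positivity
  have hmem : ((((‖u0‖ + 1)⁻¹ : ℝ) : 𝕜) • ContinuousLinearMap.id 𝕜 E) ∈ K := by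
    show ‖u0.comp _‖ ≤ 1
    rw [ContinuousLinearMap.comp_smul, ContinuousLinearMap.comp_id, norm_smul, RCLike.norm_ofReal,
      abs_of_pos hpos, inv_mul_le_iff₀ (by positivity)]
    linarith
  obtain ⟨A, hA, hmax⟩ := hc.exists_isMaxOn (f := fun A : E →L[𝕜] E => ‖A.det‖) ⟨_, hmem⟩
    (ContinuousLinearMap.continuous_det.norm.continuousOn)
  have hA0 : 0 < ‖A.det‖ := by
    refine lt_of_lt_of_le ?_ (hmax hmem)
    show 0 < ‖LinearMap.det _‖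
    rw [ContinuousLinearMap.toLinearMap_smul, LinearMap.det_smul]
    simp only [ContinuousLinearMap.coe_id, LinearMap.det_id, mul_one, norm_pow, RCLike.norm_ofReal,
      abs_of_pos hpos]
    positivity
  refine ⟨u0.comp A, hA, fun T hT => ?_⟩
  have h1 : A.comp T ∈ K := by
    show ‖u0.comp (A.comp T)‖ ≤ 1
    rwa [← ContinuousLinearMap.comp_assoc]
  have h2 : ‖(A.comp T).det‖ ≤ ‖A.det‖ := hmax h1
  have h3 : (A.comp T).det = A.det * T.det := by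
    simp [ContinuousLinearMap.det, LinearMap.det_comp]
  rw [h3, norm_mul] at h2
  nlinarith

theorem dr {𝕜 Y : Type*} [RCLike 𝕜] [NormedAddCommGroup Y] [NormedSpace 𝕜 Y]
    (hY : ¬ FiniteDimensional 𝕜 Y) (m : ℕ) :
    ∃ (u : EuclideanSpace 𝕜 (Fin (m + m)) →L[𝕜] Y) (a : Fin m → EuclideanSpace 𝕜 (Fin (m + m))),
      ‖u‖ ≤ 1 ∧ Orthonormal 𝕜 a ∧ ∀ i, 2 / 5 ≤ ‖u (a i)‖ := by
  have hr : ((m + m : ℕ) : Cardinal) ≤ Module.rank 𝕜 Y := by
    have : ¬ Module.rank 𝕜 Y < Cardinal.aleph0 := fun h => hY (Module.rank_lt_aleph0_iff.1 h)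
    exact Cardinal.natCast_lt_aleph0.le.trans (not_lt.1 this)
  obtain ⟨v, hv⟩ := exists_linearIndependent_of_le_rank hr
  let b := (EuclideanSpace.basisFun (Fin (m + m)) 𝕜).toBasis
  let u1 : EuclideanSpace 𝕜 (Fin (m + m)) →ₗ[𝕜] Y := b.constr 𝕜 v
  have hinj : LinearMap.ker u1 = ⊥ := by
    rw [LinearMap.ker_eq_bot]
    exact b.injective_constr_of_linearIndependent hv
  obtain ⟨u, hu, hmax⟩ := dr_max (LinearMap.toContinuousLinearMap u1) hinj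
  obtain ⟨a, ha, ha2⟩ := dr_ind m (by simp) u hu hmax m le_rfl
  exact ⟨u, a, hu, ha, ha2⟩

theorem dr_dual {𝕜 X : Type*} [RCLike 𝕜] [NormedAddCommGroup X] [NormedSpace 𝕜 X]
    (hX : ¬ FiniteDimensional 𝕜 X) (ι : Type) [Fintype ι] :
    ∃ φ : ι → X →L[𝕜] 𝕜, (∀ i, 2 / 5 ≤ ‖φ i‖) ∧ ∀ x, ∑ i, ‖φ i x‖ ^ 2 ≤ ‖x‖ ^ 2 := by
  have hY : ¬ FiniteDimensional 𝕜 (X →L[𝕜] 𝕜) := by
    intro h
    have h' : FiniteDimensional 𝕜 (StrongDual 𝕜 (StrongDual 𝕜 X)) :=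
      inferInstanceAs (FiniteDimensional 𝕜 ((X →L[𝕜] 𝕜) →L[𝕜] 𝕜))
    exact hX (FiniteDimensional.of_injective (V₂ := StrongDual 𝕜 (StrongDual 𝕜 X))
      (NormedSpace.inclusionInDoubleDual 𝕜 X).toLinearMap
      (NormedSpace.inclusionInDoubleDualLi 𝕜 (E := X)).injective)
  obtain ⟨u, a, hu, ha, ha2⟩ := dr hY (Fintype.card ι)
  let e := Fintype.equivFin ι
  refine ⟨fun i => u (a (e i)), fun i => ha2 _, fun x => ?_⟩
  let L : EuclideanSpace 𝕜 (Fin (Fintype.card ι + Fintype.card ι)) →L[𝕜] 𝕜 :=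
    (ContinuousLinearMap.apply 𝕜 𝕜 x).comp u
  have hL : ‖L‖ ≤ ‖x‖ := by
    refine ContinuousLinearMap.opNorm_le_bound _ (norm_nonneg _) fun y => ?_
    have h1 : ‖u y x‖ ≤ ‖u y‖ * ‖x‖ := (u y).le_opNorm x
    have h2 : ‖u y‖ ≤ ‖y‖ := (u.le_opNorm y).trans (by nlinarith [norm_nonneg y])
    show ‖u y x‖ ≤ _
    nlinarith [norm_nonneg x]
  set z := (InnerProductSpace.toDual 𝕜 _).symm L with hz
  have hz1 : ‖z‖ = ‖L‖ := by simp [hz]
  have h3 := (ha.comp e e.injective).sum_inner_products_le (s := univ) z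
  have h4 : ∀ i, ‖u (a (e i)) x‖ = ‖inner 𝕜 ((a ∘ e) i) z‖ := by
    intro i
    rw [norm_inner_symm, hz, InnerProductSpace.toDual_symm_apply]
    rfl
  simp only [h4]
  exact h3.trans (by rw [hz1]; gcongr)

end Vale.Agent.P129
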