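import Vale.Agent.P129.Core
import Vale.Agent.P129.DR

/-! The Banach space part. -/

namespace Vale.Agent.P129

open Filter Finset

universe u

theorem exists_seqM {𝕜 : Type*} {X : Type u} [RCLike 𝕜] [NormedAddCommGroup X] [NormedSpace 𝕜 X]
    (hX : ¬ FiniteDimensional 𝕜 X) (D : Set X)
    (hD : Cardinal.lift.{0} (Cardinal.mk D) < Cardinal.lift.{u} nonM) (hb : bdg < nonM) :
    ∃ ψ : ℕ → X →L[𝕜] 𝕜, (∀ n, 2 / 5 ≤ ‖ψ n‖) ∧
      ∀ x ∈ D, ∀ᶠ n in atTop, ‖ψ n x‖ ≤ (1 / 2 : ℝ) ^ n := by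
  classical
  choose φ hφ1 hφ2 using fun a : ℕ => dr_dual hX (Code a)
  let S : D → ℕ → (a : ℕ) → Finset (Code a) :=
    fun x n a => univ.filter fun s => (1 / 2 : ℝ) ^ n < ‖φ a s x‖
  have hS : ∀ x : D, ∀ᶠ n in atTop, ∀ a, (S x n a).card ≤ 8 ^ n := by
    intro x
    filter_upwards [(tendsto_pow_atTop_atTop_of_one_lt (one_lt_two (α := ℝ))).eventually_ge_atTop
      (‖(x : X)‖ ^ 2)] with n hx2 a
    have h1 : ((S x n a).card : ℝ) * ((1 / 2 : ℝ) ^ n) ^ 2 ≤ ‖(x : X)‖ ^ 2 := by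
      calc ((S x n a).card : ℝ) * ((1 / 2 : ℝ) ^ n) ^ 2
          = ∑ _s ∈ S x n a, ((1 / 2 : ℝ) ^ n) ^ 2 := by
            rw [sum_const, nsmul_eq_mul]
        _ ≤ ∑ s ∈ S x n a, ‖φ a s x‖ ^ 2 :=
            sum_le_sum fun s hs => pow_le_pow_left₀ (by positivity) (mem_filter.1 hs).2.le 2
        _ ≤ ∑ s, ‖φ a s x‖ ^ 2 :=
            sum_le_sum_of_subset_of_nonneg (subset_univ _) fun _ _ _ => by positivity
        _ ≤ _ := hφ2 a x
    have h2 : (8 : ℝ) ^ n * ((1 / 2 : ℝ) ^ n) ^ 2 = 2 ^ n := by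
      rw [← pow_mul, mul_comm n 2, pow_mul, ← mul_pow]
      norm_num
    have h3 : ((S x n a).card : ℝ) ≤ 8 ^ n :=
      le_of_mul_le_mul_right (h1.trans (hx2.trans h2.ge)) (by positivity)
    exact_mod_cast h3
  obtain ⟨a, s, A, hA, hev⟩ := core hD hb (fun n => 8 ^ n)
    (fun _ _ hmn => Nat.pow_le_pow_right (by norm_num) hmn) S hS
  have hA' : (setOf fun n => n ∈ A).Infinite := hA
  have hmono : StrictMono (Nat.nth fun n => n ∈ A) := Nat.nth_strictMono hA'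
  refine ⟨fun k => φ (a (Nat.nth (fun n => n ∈ A) k)) (s (Nat.nth (fun n => n ∈ A) k)),
    fun k => hφ1 _ _, fun x hx => ?_⟩
  filter_upwards [hmono.tendsto_atTop.eventually (hev ⟨x, hx⟩)] with k hk
  have h1 := hk (Nat.nth_mem_of_infinite hA' k)
  have h2 : ‖φ (a (Nat.nth (fun n => n ∈ A) k)) (s (Nat.nth (fun n => n ∈ A) k)) x‖ ≤
      (1 / 2 : ℝ) ^ (Nat.nth (fun n => n ∈ A) k) := by
    by_contra hc
    exact h1 (mem_filter.2 ⟨mem_univ _, not_le.1 hc⟩)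
  exact h2.trans (pow_le_pow_of_le_one (by norm_num) (by norm_num) hmono.le_apply)

end Vale.Agent.P129
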