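import Vale.Agent.P129.JDefs

/-! The Bessel inequality. -/

namespace Vale.Agent.P129

open Filter Topology

variable {𝕜 : Type*} [RCLike 𝕜]

theorem bessel_par (a b : 𝕜) : ‖a + b‖ ^ 2 + ‖a - b‖ ^ 2 = 2 * (‖a‖ ^ 2 + ‖b‖ ^ 2) := by
  have := parallelogram_law_with_norm 𝕜 a b
  nlinarith [this]

theorem bessel_cs {ι : Type*} [Fintype ι] (H : ι → 𝕜) :
    ‖∑ t, H t‖ ^ 2 ≤ Fintype.card ι * ∑ t, ‖H t‖ ^ 2 := by
  have h1 : ‖∑ t, H t‖ ≤ ∑ t, ‖H t‖ := norm_sum_le _ _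
  have h2 : (∑ t, ‖H t‖) ^ 2 ≤ (Finset.univ : Finset ι).card * ∑ t, ‖H t‖ ^ 2 :=
    sq_sum_le_card_mul_sum_sq
  rw [Finset.card_univ] at h2
  exact (pow_le_pow_left₀ (norm_nonneg _) h1 2).trans h2

theorem bessel_aux (m : ℕ) : ∀ F : Node m → 𝕜,
    ∑ i ∈ Finset.range m, ‖∑ t, rad 𝕜 m i t * F t‖ ^ 2 ≤ 2 ^ m * ∑ t, ‖F t‖ ^ 2 := by
  induction m with
  | zero => intro F; simp; positivity
  | succ m ih =>
    intro F
    set G : Node m → 𝕜 := fun t => F (t, true) + F (t, false) with hG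
    set H : Node m → 𝕜 := fun t => F (t, true) - F (t, false) with hH
    rw [Finset.sum_range_succ]
    have h1 : ∀ i ∈ Finset.range m,
        ‖∑ t, rad 𝕜 (m + 1) i t * F t‖ ^ 2 = ‖∑ t, rad 𝕜 m i t * G t‖ ^ 2 := by
      intro i hi
      have hne : i ≠ m := (Finset.mem_range.1 hi).ne
      rw [sum_node_succ]
      congr 2
      refine Finset.sum_congr rfl fun t _ => ?_
      simp only [rad, if_neg hne, hG]
      ring
    have h2 : ∑ t, rad 𝕜 (m + 1) m t * F t = ∑ t, H t := by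
      rw [sum_node_succ]
      refine Finset.sum_congr rfl fun t _ => ?_
      simp [rad, hH, sub_eq_add_neg]
    rw [Finset.sum_congr rfl h1, h2]
    have h3 := ih G
    have h4 := bessel_cs H
    rw [card_node] at h4
    push_cast at h4
    have h5 : ∑ t, ‖F t‖ ^ 2 = ∑ t : Node m, (‖F (t, true)‖ ^ 2 + ‖F (t, false)‖ ^ 2) :=
      sum_node_succ m fun t => ‖F t‖ ^ 2
    have h6 : ∑ t, ‖G t‖ ^ 2 + ∑ t, ‖H t‖ ^ 2 = 2 * ∑ t, ‖F t‖ ^ 2 := by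
      rw [h5, ← Finset.sum_add_distrib, Finset.mul_sum]
      exact Finset.sum_congr rfl fun t _ => bessel_par _ _
    calc _ ≤ 2 ^ m * ∑ t, ‖G t‖ ^ 2 + 2 ^ m * ∑ t, ‖H t‖ ^ 2 := add_le_add h3 h4
      _ = 2 ^ (m + 1) * ∑ t, ‖F t‖ ^ 2 := by rw [← mul_add, h6]; ring

theorem bessel (m : ℕ) (F : Node m → 𝕜) (C : ℝ) (hF : ∀ t, ‖F t‖ ≤ C) :
    ∑ i ∈ Finset.range m, ‖∑ t, rad 𝕜 m i t * F t‖ ^ 2 ≤ (2 ^ m * C) ^ 2 := by
  refine (bessel_aux m F).trans ?_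
  have h : ∑ t, ‖F t‖ ^ 2 ≤ 2 ^ m * C ^ 2 := by
    calc ∑ t, ‖F t‖ ^ 2 ≤ ∑ _t : Node m, C ^ 2 :=
          Finset.sum_le_sum fun t _ => pow_le_pow_left₀ (norm_nonneg _) (hF t) 2
      _ = 2 ^ m * C ^ 2 := by
          rw [Finset.sum_const, Finset.card_univ, card_node]; simp
  calc (2 : ℝ) ^ m * ∑ t, ‖F t‖ ^ 2 ≤ 2 ^ m * (2 ^ m * C ^ 2) :=
        mul_le_mul_of_nonneg_left h (by positivity)
    _ = (2 ^ m * C) ^ 2 := by ring

end Vale.Agent.P129
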