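import Mathlib

/-! Meagre subsets of the Cantor space, combinatorially. -/

namespace Vale.Agent.P129

open Filter

namespace ExtA

/-- flip the first `p` coordinates according to `σ` -/
def flip (p : ℕ) (σ : Fin p → Bool) (w : ℕ → Bool) : ℕ → Bool :=
  fun i => if h : i < p then xor (w i) (σ ⟨i, h⟩) else w i

theorem flip_flip (p : ℕ) (σ : Fin p → Bool) (w : ℕ → Bool) : flip p σ (flip p σ w) = w := by
  funext i
  unfold flip
  split_ifs <;> simp

theorem flip_cont (p : ℕ) (σ : Fin p → Bool) : Continuous (flip p σ) := by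
  refine continuous_pi fun i => ?_
  unfold flip
  split_ifs with h
  · exact (continuous_of_discreteTopology (f := fun b : Bool => xor b (σ ⟨i, h⟩))).comp
      (continuous_apply i)
  · exact continuous_apply i

theorem flip_dense (p : ℕ) (σ : Fin p → Bool) {U : Set (ℕ → Bool)} (hd : Dense U) :
    Dense (flip p σ ⁻¹' U) := by
  have hs : Function.Surjective (flip p σ) := fun w => ⟨_, flip_flip p σ w⟩
  refine (hs.denseRange.dense_image (flip_cont p σ) hd).mono ?_
  rintro _ ⟨w, hw, rfl⟩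
  rwa [Set.mem_preimage, flip_flip]

end ExtA

theorem ext_open_dense (U : Set (ℕ → Bool)) (hU : IsOpen U) (hd : Dense U) (p : ℕ) :
    ∃ q, p ≤ q ∧ ∃ w : ℕ → Bool, ∀ z : ℕ → Bool, (∀ i, p ≤ i → i < q → z i = w i) → z ∈ U := by
  have h1 : IsOpen (⋂ σ : Fin p → Bool, ExtA.flip p σ ⁻¹' U) :=
    isOpen_iInter_of_finite fun σ => hU.preimage (ExtA.flip_cont p σ)
  have h2 : Dense (⋂ σ : Fin p → Bool, ExtA.flip p σ ⁻¹' U) :=
    dense_iInter_of_isOpen (fun σ => hU.preimage (ExtA.flip_cont p σ))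
      fun σ => ExtA.flip_dense p σ hd
  obtain ⟨w, hw⟩ := h2.nonempty
  obtain ⟨I, u, hu, hI⟩ := isOpen_pi_iff.1 h1 w hw
  refine ⟨p + I.sup id + 1, by omega, w, fun z hz => ?_⟩
  have h3 : ExtA.flip p (fun i => xor (z i) (w i)) z ∈ (I : Set ℕ).pi u := fun i hi => by
    have h4 : i ≤ I.sup id := Finset.le_sup (f := id) hi
    have h5 : ExtA.flip p (fun i => xor (z i) (w i)) z i = w i := by
      unfold ExtA.flip
      split_ifs with h
      · simp
      · exact hz i (by omega) (by omega)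
    rw [h5]
    exact (hu i hi).2
  have h6 := Set.mem_iInter.1 (hI h3) fun i => xor (z i) (w i)
  rwa [Set.mem_preimage, ExtA.flip_flip] at h6

theorem meagre_seq (Z : Set (ℕ → Bool)) (hZ : IsMeagre Z) :
    ∃ U : ℕ → Set (ℕ → Bool), (∀ n, IsOpen (U n)) ∧ (∀ n, Dense (U n)) ∧
      ∀ z ∈ Z, ∀ᶠ n in atTop, z ∉ U n := by
  obtain ⟨S, h1, h2, h3, h4⟩ := mem_residual_iff.1 hZ
  obtain ⟨V, hV⟩ := (h3.insert Set.univ).exists_eq_range (Set.insert_nonempty _ _)
  have hm : ∀ k, V k = Set.univ ∨ V k ∈ S := fun k => by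
    have : V k ∈ insert Set.univ S := hV ▸ Set.mem_range_self k
    exact this
  have ho : ∀ k, IsOpen (V k) := fun k => (hm k).elim (fun e => e ▸ isOpen_univ) (h1 _)
  have hd : ∀ k, Dense (V k) := fun k => (hm k).elim (fun e => e ▸ dense_univ) (h2 _)
  refine ⟨fun n => ⋂ k : Fin (n + 1), V k, fun n => isOpen_iInter_of_finite fun k => ho k,
    fun n => dense_iInter_of_isOpen (fun k => ho k) fun k => hd k, fun z hz => ?_⟩
  have h5 : z ∉ ⋂₀ S := fun h => h4 h hz
  obtain ⟨t, ht, hzt⟩ : ∃ t ∈ S, z ∉ t := by simpa using h5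
  obtain ⟨k, rfl⟩ : t ∈ Set.range V := hV ▸ Set.mem_insert_of_mem _ ht
  exact eventually_atTop.2 ⟨k, fun n hn h => hzt (Set.mem_iInter.1 h ⟨k, by omega⟩)⟩

end Vale.Agent.P129
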