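import Mathlib

/-! Serving finitely many codes by one pattern. -/

namespace Vale.Agent.P129

theorem greedy_aux {γ : Type} (en : γ → ℕ → ℕ) (pat : γ → ℕ → ℕ → Bool)
    (hen : ∀ c p, p ≤ en c p) (k : ℕ) : ∀ (S : Finset γ) (l : ℕ), S.card = k →
    ∃ z : ℕ → Bool, ∀ c ∈ S, ∀ E : ℕ → ℕ, Monotone E → (∀ p, p ≤ E p) → (∀ p, en c p ≤ E p) →
      ∃ p, l ≤ p ∧ en c p ≤ E^[k] l ∧ ∀ i, p ≤ i → i < en c p → z i = pat c p i := by
  classical
  induction k with
  | zero =>
    intro S l hS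
    refine ⟨fun _ => true, fun c hc => ?_⟩
    rw [Finset.card_eq_zero.1 hS] at hc
    simp at hc
  | succ k ih =>
    intro S l hS
    obtain ⟨c0, hc0, hmin⟩ := S.exists_min_image (fun c => en c l)
      (Finset.card_pos.1 (by omega))
    obtain ⟨z', hz'⟩ := ih (S.erase c0) (en c0 l) (by rw [Finset.card_erase_of_mem hc0]; omega)
    refine ⟨fun i => if i < en c0 l then pat c0 l i else z' i, fun c hc E hE hE' hEc => ?_⟩
    by_cases h : c = c0
    · subst h
      refine ⟨l, le_rfl, (hEc l).trans ?_, fun i _ hi => if_pos hi⟩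
      rw [Function.iterate_succ_apply]
      exact Function.id_le_iterate_of_id_le hE' k (E l)
    · obtain ⟨p, hp1, hp2, hp3⟩ := hz' c (Finset.mem_erase.2 ⟨h, hc⟩) E hE hE' hEc
      refine ⟨p, (hen c0 l).trans hp1, hp2.trans ?_, fun i hi hi' => ?_⟩
      · rw [Function.iterate_succ_apply]
        exact hE.iterate k ((hmin c hc).trans (hEc l))
      · show (if i < en c0 l then pat c0 l i else z' i) = _
        rw [if_neg (by omega)]
        exact hp3 i hi hi'

theorem greedy {γ : Type} (en : γ → ℕ → ℕ) (pat : γ → ℕ → ℕ → Bool) (hen : ∀ c p, p ≤ en c p)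
    (S : Finset γ) (l : ℕ) :
    ∃ z : ℕ → Bool, ∀ c ∈ S, ∀ E : ℕ → ℕ, Monotone E → (∀ p, p ≤ E p) → (∀ p, en c p ≤ E p) →
      ∃ p, l ≤ p ∧ en c p ≤ E^[S.card] l ∧ ∀ i, p ≤ i → i < en c p → z i = pat c p i :=
  greedy_aux en pat hen _ S l rfl

theorem glue (t : ℕ → ℕ) (ht : StrictMono t) (w : ℕ → ℕ → Bool) :
    ∃ z : ℕ → Bool, ∀ n i, t n ≤ i → i < t (n + 1) → z i = w n i := by
  classical
  refine ⟨fun i => w (Nat.findGreatest (fun n => t n ≤ i) i) i, fun n i h1 h2 => ?_⟩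
  have : Nat.findGreatest (fun n => t n ≤ i) i = n := by
    rw [Nat.findGreatest_eq_iff]
    refine ⟨(ht.le_apply).trans h1, fun _ => h1, fun m hm _ h => ?_⟩
    have := ht.monotone (show n + 1 ≤ m from hm)
    omega
  show w (Nat.findGreatest (fun n => t n ≤ i) i) i = _
  rw [this]

end Vale.Agent.P129
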