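import Mathlib

/-! Unbounded families give long windows. -/

namespace Vale.Agent.P129

open Filter

/-- window end points attached to a function -/
def win (f : ℕ → ℕ) : ℕ → ℕ
  | 0 => 0
  | n + 1 => win f n + f n + 1

theorem win_strictMono (f : ℕ → ℕ) : StrictMono (win f) :=
  strictMono_nat_of_lt_succ fun n => by
    change win f n < win f n + f n + 1
    omega

/-- the comparison sequence -/
def Unb_u (E h : ℕ → ℕ) : ℕ → ℕ
  | 0 => 0
  | n + 1 => E^[h n] (Unb_u E h n) + 1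

theorem unb_window (B : Set (ℕ → ℕ)) (hB : ¬ ∃ g : ℕ → ℕ, ∀ f ∈ B, ∀ᶠ n in atTop, f n ≤ g n)
    (E : ℕ → ℕ) (hE : Monotone E) (hE' : ∀ p, p ≤ E p) (h : ℕ → ℕ) (hh : Monotone h) :
    ∃ f ∈ B, ∃ᶠ n in atTop, E^[h n] (win f n) < win f (n + 1) := by
  by_contra hc
  apply hB
  have hit : Monotone fun k => E^[k] := Function.monotone_iterate_of_id_le (f := E) hE'
  have hu : StrictMono (Unb_u E h) := strictMono_nat_of_lt_succ fun n => by
    have : E^[0] (Unb_u E h n) ≤ E^[h n] (Unb_u E h n) := hit (Nat.zero_le _) _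
    change Unb_u E h n < E^[h n] (Unb_u E h n) + 1
    rw [Function.iterate_zero, id] at this
    omega
  refine ⟨fun n => Unb_u E h (2 * n + 1), fun f hf => ?_⟩
  have h1 : ¬ ∃ᶠ n in atTop, E^[h n] (win f n) < win f (n + 1) := fun h1 => hc ⟨f, hf, h1⟩
  rw [not_frequently, eventually_atTop] at h1
  obtain ⟨n0, hn0⟩ := h1
  obtain ⟨m, hm1, hm2⟩ : ∃ m, n0 ≤ m ∧ win f n0 ≤ m := ⟨max n0 (win f n0), le_max_left _ _, le_max_right _ _⟩
  have key : ∀ j, win f (n0 + j) ≤ Unb_u E h (m + j) := by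
    intro j
    induction j with
    | zero => exact hm2.trans hu.le_apply
    | succ j ih =>
      have a1 : win f (n0 + j + 1) ≤ E^[h (n0 + j)] (win f (n0 + j)) :=
        not_lt.1 (hn0 _ (Nat.le_add_right _ _))
      have a2 : E^[h (n0 + j)] (win f (n0 + j)) ≤ E^[h (n0 + j)] (Unb_u E h (m + j)) :=
        hE.iterate _ ih
      have a3 : E^[h (n0 + j)] (Unb_u E h (m + j)) ≤ E^[h (m + j)] (Unb_u E h (m + j)) :=
        hit (hh (Nat.add_le_add_right hm1 j)) _
      change win f (n0 + j + 1) ≤ E^[h (m + j)] (Unb_u E h (m + j)) + 1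
      omega
  rw [eventually_atTop]
  refine ⟨m, fun n hn => ?_⟩
  have b1 := key (n + 1 - n0)
  rw [show n0 + (n + 1 - n0) = n + 1 by omega] at b1
  have b2 : Unb_u E h (m + (n + 1 - n0)) ≤ Unb_u E h (2 * n + 1) := hu.monotone (by omega)
  have b3 : win f (n + 1) = win f n + f n + 1 := rfl
  beta_reduce
  omega

theorem unb_infinite (B : Set (ℕ → ℕ)) (hB : ¬ ∃ g : ℕ → ℕ, ∀ f ∈ B, ∀ᶠ n in atTop, f n ≤ g n) :
    B.Infinite := by
  intro hf
  obtain ⟨g, hg⟩ := hf.bddAbove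
  exact hB ⟨g, fun f hfB => Eventually.of_forall fun n => hg hfB n⟩

end Vale.Agent.P129
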