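import Vale.Agent.P129.DefsM
import Vale.Agent.P129.Greedy
import Vale.Agent.P129.Ext
import Vale.Agent.P129.Unb

/-! The combinatorial core. -/

namespace Vale.Agent.P129

open Filter

universe u

/-- codes for a window -/
abbrev Code (a : ℕ) : Type := Fin a → Fin a × (Fin a → Bool)

/-- end point read from a code -/
def cen {a : ℕ} (c : Code a) (p : ℕ) : ℕ := if hp : p < a then max p (c ⟨p, hp⟩).1.val else p

/-- pattern read from a code -/
def cpat {a : ℕ} (c : Code a) (p i : ℕ) : Bool :=
  if hp : p < a then (if hi : i < a then (c ⟨p, hp⟩).2 ⟨i, hi⟩ else false) else false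

/-- the code of true data -/
def mkCode (a : ℕ) (q : ℕ → ℕ) (w : ℕ → ℕ → Bool) : Code a :=
  fun p => (⟨min (q p.val) (a - 1), by have := p.2; omega⟩, fun i => w p.val i.val)

theorem le_cen {a : ℕ} (c : Code a) (p : ℕ) : p ≤ cen c p := by
  unfold cen; split_ifs <;> simp

theorem core {D : Type u} (hD : Cardinal.lift.{0} (Cardinal.mk D) < Cardinal.lift.{u} nonM)
    (hb : bdg < nonM) (h : ℕ → ℕ) (hh : Monotone h) (S : D → ℕ → (a : ℕ) → Finset (Code a))
    (hS : ∀ x, ∀ᶠ n in atTop, ∀ a, (S x n a).card ≤ h n) :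
    ∃ (a : ℕ → ℕ) (s : (n : ℕ) → Code (a n)) (A : Set ℕ), A.Infinite ∧
      ∀ x, ∀ᶠ n in atTop, n ∈ A → s n ∉ S x n (a n) := by
  classical
  obtain ⟨B, hBc, hB⟩ : ∃ B : Set (ℕ → ℕ), Cardinal.mk B = bdg ∧
      ¬ ∃ g : ℕ → ℕ, ∀ f ∈ B, ∀ᶠ n in Filter.atTop, f n ≤ g n := by
    refine csInf_mem (s := {c | ∃ B : Set (ℕ → ℕ), Cardinal.mk B = c ∧
      ¬ ∃ g : ℕ → ℕ, ∀ f ∈ B, ∀ᶠ n in Filter.atTop, f n ≤ g n}) ⟨_, Set.univ, rfl, ?_⟩
    rintro ⟨g, hg⟩
    obtain ⟨n, hn⟩ := (hg (fun n => g n + 1) trivial).exists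
    omega
  have hinf : Cardinal.aleph0 ≤ nonM := by
    have := (unb_infinite B hB).to_subtype
    exact (Cardinal.aleph0_le_mk B).trans (hBc ▸ hb.le)
  -- patterns
  have hg := fun (x : D) (f : ℕ → ℕ) (n : ℕ) =>
    greedy (γ := Code (win f (n + 1))) cen cpat le_cen (S x n (win f (n + 1))) (win f n)
  choose w hw using hg
  have hgl := fun (x : D) (f : ℕ → ℕ) => glue (win f) (win_strictMono f) (w x f)
  choose z hz using hgl
  set Z : Set (ℕ → Bool) := Set.range fun y : D × B => z y.1 y.2.1 with hZ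
  have hZc : Cardinal.mk Z < nonM := by
    have h1 := Cardinal.mk_range_le_lift (f := fun y : D × B => z y.1 y.2.1)
    have h2 : Cardinal.lift.{0} (Cardinal.mk (D × B)) < Cardinal.lift.{u} nonM := by
      rw [Cardinal.mk_prod, Cardinal.lift_uzero]
      refine Cardinal.mul_lt_of_lt (by simpa using hinf) hD ?_
      rw [hBc]
      exact Cardinal.lift_lt.2 hb
    exact Cardinal.lift_lt.1 (h1.trans_lt h2)
  have hZm : IsMeagre Z := by
    by_contra hne
    exact notMem_of_lt_csInf' hZc ⟨Z, rfl, hne⟩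
  obtain ⟨U, hUo, hUd, hUz⟩ := meagre_seq Z hZm
  have he := fun n p => ext_open_dense (U n) (hUo n) (hUd n) p
  choose q hq v hv using he
  let E : ℕ → ℕ := fun p => (Finset.range (p + 1)).sup fun n =>
    (Finset.range (p + 1)).sup fun r => q n r
  have hE : Monotone E := by
    intro p p' hpp
    refine Finset.sup_le fun n hn => Finset.sup_le fun r hr => ?_
    have hn' : n ∈ Finset.range (p' + 1) := by simp at hn ⊢; omega
    have hr' : r ∈ Finset.range (p' + 1) := by simp at hr ⊢; omega
    exact (Finset.le_sup (f := fun r => q n r) hr').trans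
      (Finset.le_sup (f := fun n => (Finset.range (p' + 1)).sup fun r => q n r) hn')
  have hqE : ∀ n p, n ≤ p → q n p ≤ E p := by
    intro n p hnp
    have hn' : n ∈ Finset.range (p + 1) := by simp; omega
    have hr' : p ∈ Finset.range (p + 1) := by simp
    exact (Finset.le_sup (f := fun r => q n r) hr').trans
      (Finset.le_sup (f := fun n => (Finset.range (p + 1)).sup fun r => q n r) hn')
  have hE' : ∀ p, p ≤ E p := fun p => (hq 0 p).trans (hqE 0 p (Nat.zero_le _))
  obtain ⟨f, hfB, hf⟩ := unb_window B hB (fun p => E p + 1) (fun a b hab => by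
    have := hE hab; simp only; omega) (fun p => by have := hE' p; omega) (fun n => h n + 1)
    (fun a b hab => by have := hh hab; simp only; omega)
  set E1 : ℕ → ℕ := fun p => E p + 1 with hE1
  have hE1m : Monotone E1 := fun a b hab => by have := hE hab; simp only [hE1]; omega
  have hE1i : ∀ p, p ≤ E1 p := fun p => by have := hE' p; simp only [hE1]; omega
  -- the true code, only reading positions at least `n`
  let q' : ℕ → ℕ → ℕ := fun n p => if n ≤ p then q n p else p
  refine ⟨fun n => win f (n + 1), fun n => mkCode _ (q' n) (v n),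
    {n | E1^[h n + 1] (win f n) < win f (n + 1)}, Nat.frequently_atTop_iff_infinite.1 hf,
    fun x => ?_⟩
  filter_upwards [hS x, hUz (z x f) ⟨(x, ⟨f, hfB⟩), rfl⟩] with n hn1 hn2 hA hmem
  apply hn2
  have hq'E : ∀ p, q' n p ≤ E p := by
    intro p
    simp only [q']
    split_ifs with h1
    · exact hqE n p h1
    · exact hE' p
  have hcE : ∀ p, cen (mkCode (win f (n + 1)) (q' n) (v n)) p ≤ E1 p := by
    intro p
    have h1 := hq'E p
    have h2 := hE' p
    unfold cen
    split_ifs with hp
    · simp only [mkCode, hE1]; omega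
    · exact hE1i p
  obtain ⟨p, hp1, hp2, hp3⟩ := hw x f n _ hmem E1 hE1m hE1i hcE
  have hit : E1^[(S x n (win f (n + 1))).card] (win f n) + 1 ≤ E1^[h n + 1] (win f n) := by
    have h1 : E1^[(S x n (win f (n + 1))).card] (win f n) ≤ E1^[h n] (win f n) :=
      Function.monotone_iterate_of_id_le (f := E1) hE1i (hn1 _) _
    rw [Function.iterate_succ_apply']
    have h2 := hE' (E1^[h n] (win f n))
    have h3 : E1 (E1^[h n] (win f n)) = E (E1^[h n] (win f n)) + 1 := rfl
    omega
  have hA' : E1^[h n + 1] (win f n) < win f (n + 1) := hA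
  have hnw : n ≤ win f n := (win_strictMono f).le_apply
  have hlt : cen (mkCode (win f (n + 1)) (q' n) (v n)) p + 1 < win f (n + 1) := by omega
  have hpa : p < win f (n + 1) := by
    have := le_cen (mkCode (win f (n + 1)) (q' n) (v n)) p
    omega
  have hq'p : q' n p = q n p := if_pos (by omega)
  have hcen : cen (mkCode (win f (n + 1)) (q' n) (v n)) p = q n p := by
    have h1 := hq n p
    unfold cen at hlt ⊢
    rw [dif_pos hpa] at hlt ⊢
    simp only [mkCode, hq'p] at hlt ⊢
    omega
  refine hv n p _ fun i hi1 hi2 => ?_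
  rw [hz x f n i (by omega) (by omega), hp3 i hi1 (by omega)]
  unfold cpat
  rw [dif_pos hpa, dif_pos (by omega : i < win f (n + 1))]
  rfl

end Vale.Agent.P129
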