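import Vale.Agent.P129.Defs

/-! Comparison of the two cardinals. -/

namespace Vale.Agent.P129

open MeasureTheory Filter Set

namespace Cov

/-- the first binary digits of the fractional part -/
noncomputable def dig (w : ℝ) (n : ℕ) : ℕ := ⌊(2 : ℝ) ^ n * Int.fract w⌋₊

theorem dig_lt (w : ℝ) (n : ℕ) : dig w n < 2 ^ n := by
  have h : (0 : ℝ) < 2 ^ n := by positivity
  rw [dig, Nat.floor_lt (mul_nonneg h.le (Int.fract_nonneg w))]
  push_cast
  nlinarith [Int.fract_lt_one w]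

theorem vol_le (z : ℤ) (k n : ℕ) :
    volume {w : ℝ | ⌊w⌋ = z ∧ k = dig w n} ≤ ENNReal.ofReal ((1 / 2 : ℝ) ^ n) := by
  have h : (0 : ℝ) < 2 ^ n := by positivity
  have hs : {w : ℝ | ⌊w⌋ = z ∧ k = dig w n} ⊆
      Ico ((z : ℝ) + k / 2 ^ n) ((z : ℝ) + (k + 1) / 2 ^ n) := by
    rintro w ⟨h1, h2⟩
    have h3 := (Nat.floor_eq_iff (mul_nonneg h.le (Int.fract_nonneg w))).1 h2.symm
    have h4 : Int.fract w = w - z := by rw [Int.fract, h1]
    rw [h4] at h3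
    constructor
    · have : (k : ℝ) / 2 ^ n ≤ w - z := by rw [div_le_iff₀ h]; linarith [h3.1]
      linarith
    · have : w - z < ((k : ℝ) + 1) / 2 ^ n := by rw [lt_div_iff₀ h]; linarith [h3.2]
      linarith
  refine (measure_mono hs).trans ?_
  rw [Real.volume_Ico]
  apply le_of_eq
  congr 1
  rw [one_div, inv_pow]
  field_simp
  ring

theorem null (f : ℕ → ℕ) : volume {w : ℝ | ∃ᶠ n in atTop, f n = dig w n} = 0 := by
  have hs : {w : ℝ | ∃ᶠ n in atTop, f n = dig w n} ⊆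
      ⋃ z : ℤ, {w : ℝ | ∃ᶠ n in atTop, ⌊w⌋ = z ∧ f n = dig w n} := by
    intro w hw
    exact mem_iUnion.2 ⟨⌊w⌋, Frequently.mono hw fun n hn => ⟨rfl, hn⟩⟩
  refine measure_mono_null hs (measure_iUnion_null fun z => ?_)
  refine measure_setOf_frequently_eq_zero (p := fun n w => ⌊w⌋ = z ∧ f n = dig w n) ?_
  refine ne_top_of_le_ne_top ?_ (ENNReal.tsum_le_tsum fun n => vol_le z (f n) n)
  rw [← ENNReal.ofReal_tsum_of_nonneg (fun n => by positivity) summable_geometric_two]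
  exact ENNReal.ofReal_ne_top

end Cov

theorem covN_le : covN ≤ evd fun n => 2 ^ n := by
  have hne : {c | ∃ F : Set (ℕ → ℕ), Cardinal.mk F = c ∧ ∀ g : ℕ → ℕ, (∀ n, g n < 2 ^ n) →
      ∃ f ∈ F, ∃ᶠ n in Filter.atTop, f n = g n}.Nonempty :=
    ⟨_, univ, rfl, fun g _ => ⟨g, mem_univ _, Frequently.of_forall fun _ => rfl⟩⟩
  obtain ⟨F, hF, hcov⟩ := csInf_mem hne
  have h1 : covN ≤ Cardinal.mk
      ((fun f : ℕ → ℕ => {w : ℝ | ∃ᶠ n in atTop, f n = Cov.dig w n}) '' F) := by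
    refine csInf_le' ⟨_, rfl, ?_, ?_⟩
    · rintro A ⟨f, _, rfl⟩
      exact Cov.null f
    · refine eq_univ_of_forall fun w => ?_
      obtain ⟨f, hf, h⟩ := hcov (Cov.dig w) (Cov.dig_lt w)
      exact ⟨_, ⟨f, hf, rfl⟩, h⟩
  exact h1.trans (Cardinal.mk_image_le.trans hF.le)

end Vale.Agent.P129
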