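import Mathlib

/-! Two cardinal characteristics of the continuum. -/

namespace Vale.Agent.P129

open Cardinal

/-- the covering number of the Lebesgue null ideal -/
noncomputable def covN : Cardinal.{0} :=
  sInf {c | ∃ 𝒜 : Set (Set ℝ), Cardinal.mk 𝒜 = c ∧ (∀ A ∈ 𝒜, MeasureTheory.volume A = 0) ∧
    ⋃₀ 𝒜 = Set.univ}

/-- the least size of a family meeting every function below `b` infinitely often -/
noncomputable def evd (b : ℕ → ℕ) : Cardinal.{0} :=
  sInf {c | ∃ F : Set (ℕ → ℕ), Cardinal.mk F = c ∧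
    ∀ g : ℕ → ℕ, (∀ n, g n < b n) → ∃ f ∈ F, ∃ᶠ n in Filter.atTop, f n = g n}

end Vale.Agent.P129
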