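import Mathlib

/-! The bounding number and the uniformity of the meagre ideal. -/

namespace Vale.Agent.P129

/-- the least size of a non-meagre subset of the Cantor space -/
noncomputable def nonM : Cardinal.{0} :=
  sInf {c | ∃ Z : Set (ℕ → Bool), Cardinal.mk Z = c ∧ ¬ IsMeagre Z}

/-- the least size of a family that is unbounded under eventual domination -/
noncomputable def bdg : Cardinal.{0} :=
  sInf {c | ∃ B : Set (ℕ → ℕ), Cardinal.mk B = c ∧
    ¬ ∃ g : ℕ → ℕ, ∀ f ∈ B, ∀ᶠ n in Filter.atTop, f n ≤ g n}

end Vale.Agent.P129
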