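import Vale.Agent.P129.NoStar
import Vale.Agent.P129.DefsM

/-! Diagonalising below the bounding number. -/

namespace Vale.Agent.P129

open Filter Topology

universe u

theorem Diag.unit {𝕜 X : Type*} [RCLike 𝕜] [NormedAddCommGroup X] [NormedSpace 𝕜 X]
    (hX : ¬ FiniteDimensional 𝕜 X) {ε : ℝ} (hε : 0 < ε) :
    ∃ u : ℕ → X →L[𝕜] 𝕜, (∀ k, ‖u k‖ = 1) ∧ ∀ x, ∃ K, ∀ k, K ≤ k → ‖u k x‖ ≤ ε * ‖x‖ := by
  have h := not_star hX hε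
  unfold Star at h
  push Not at h
  obtain ⟨θ, r, hr, h1, h2⟩ := h
  have hp : ∀ k, 0 < ‖θ k‖ := fun k => hr.trans_le (h1 k)
  refine ⟨fun k => ((‖θ k‖ : 𝕜)⁻¹) • θ k, fun k => norm_smul_inv_norm (norm_pos_iff.1 (hp k)),
    fun x => ?_⟩
  by_cases hx : x = 0
  · exact ⟨0, fun k _ => by simp [hx]⟩
  have hx' : 0 < ‖x‖ := norm_pos_iff.2 hx
  obtain ⟨K, hK⟩ := eventually_atTop.1 (h2 _ (norm_smul_inv_norm (𝕜 := 𝕜) hx).le)
  refine ⟨K, fun k hk => ?_⟩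
  have h3 := hK k hk
  rw [map_smul, norm_smul, norm_inv, RCLike.norm_ofReal, abs_norm, inv_mul_le_iff₀ hx'] at h3
  rw [smul_apply, norm_smul, norm_inv, RCLike.norm_ofReal, abs_norm,
    inv_mul_le_iff₀ (hp k)]
  have h4 := mul_le_mul_of_nonneg_right (h1 k) (mul_pos hε hx').le
  linarith

theorem Diag.dom {X : Type u} (D : Set X)
    (h : Cardinal.lift.{0} (Cardinal.mk D) < Cardinal.lift.{u} bdg) (f : X → ℕ → ℕ) :
    ∃ g : ℕ → ℕ, ∀ x ∈ D, ∀ᶠ n in atTop, f x n ≤ g n := by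
  have h1 : Cardinal.mk (Set.range fun x : D => f x) < bdg := by
    have h2 := Cardinal.mk_range_le_lift (f := fun x : D => f x)
    exact Cardinal.lift_lt.1 (h2.trans_lt h)
  have h2 := notMem_of_lt_csInf' h1
  by_contra hn
  refine h2 ⟨_, rfl, fun ⟨g, hg⟩ => hn ⟨g, fun x hx => hg _ ⟨⟨x, hx⟩, rfl⟩⟩⟩

theorem exists_seqB {𝕜 : Type*} {X : Type u} [RCLike 𝕜] [NormedAddCommGroup X] [NormedSpace 𝕜 X]
    (hX : ¬ FiniteDimensional 𝕜 X) (D : Set X)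
    (hD : Cardinal.lift.{0} (Cardinal.mk D) < Cardinal.lift.{u} bdg) :
    ∃ ψ : ℕ → X →L[𝕜] 𝕜, (∀ n, 2 / 5 ≤ ‖ψ n‖) ∧
      ∀ x ∈ D, ∀ᶠ n in atTop, ‖ψ n x‖ ≤ (1 / 2 : ℝ) ^ n := by
  choose u h1 f h2 using fun n : ℕ => Diag.unit hX (ε := (1 / 4 : ℝ) ^ n) (by positivity)
  obtain ⟨g, hg⟩ := Diag.dom D hD fun x n => f n x
  refine ⟨fun n => u n (g n), fun n => by rw [h1]; norm_num, fun x hx => ?_⟩
  have h3 : ∀ᶠ n : ℕ in atTop, ‖x‖ ≤ (2 : ℝ) ^ n :=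
    (tendsto_pow_atTop_atTop_of_one_lt one_lt_two).eventually_ge_atTop _
  filter_upwards [hg x hx, h3] with n h4 h5
  refine (h2 n x _ h4).trans ((mul_le_mul_of_nonneg_left h5 (by positivity)).trans (le_of_eq ?_))
  rw [← mul_pow]
  norm_num

end Vale.Agent.P129
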