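import Vale.Agent.P129.Defs
import Vale.Agent.P129.DR

/-! Evading the exceptional sets. -/

namespace Vale.Agent.P129

open Filter Finset

universe u

theorem exists_evade {X : Type u} (D : Set X) (b : ℕ → ℕ)
    (h : Cardinal.lift.{0} (Cardinal.mk D) < Cardinal.lift.{u} (evd b)) (f : X → ℕ → ℕ) :
    ∃ g : ℕ → ℕ, (∀ n, g n < b n) ∧ ∀ x ∈ D, ∀ᶠ n in atTop, f x n ≠ g n := by
  have h1 : Cardinal.mk (Set.range fun x : D => f x) < evd b := by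
    have h2 := Cardinal.mk_range_le_lift (f := fun x : D => f x)
    exact Cardinal.lift_lt.1 (h2.trans_lt h)
  have h2 := notMem_of_lt_csInf' h1
  by_contra hn
  refine h2 ⟨_, rfl, fun g hg => ?_⟩
  by_contra h3
  refine hn ⟨g, hg, fun x hx => ?_⟩
  by_contra h4
  refine h3 ⟨f x, ⟨⟨x, hx⟩, rfl⟩, ?_⟩
  exact (Filter.not_eventually.1 h4).mono fun n hn => not_not.1 hn

theorem exists_seq {𝕜 : Type*} {X : Type u} [RCLike 𝕜] [NormedAddCommGroup X] [NormedSpace 𝕜 X]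
    (hX : ¬ FiniteDimensional 𝕜 X) (D : Set X) (b : ℕ → ℕ)
    (h : Cardinal.lift.{0} (Cardinal.mk D) < Cardinal.lift.{u} (evd b)) :
    ∃ ψ : ℕ → X →L[𝕜] 𝕜, (∀ n, 2 / 5 ≤ ‖ψ n‖) ∧
      ∀ x ∈ D, ∀ᶠ n in atTop, ‖ψ n x‖ ≤ (1 / 2 : ℝ) ^ n := by
  classical
  choose φ hφ1 hφ2 using fun n : ℕ =>
    dr_dual hX ((j : Fin (8 ^ n)) → Fin (b (Nat.pair n j)))
  let S : (x : X) → (n : ℕ) → Finset ((j : Fin (8 ^ n)) → Fin (b (Nat.pair n j))) :=
    fun x n => univ.filter fun s => (1 / 2 : ℝ) ^ n < ‖φ n s x‖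
  let f' : X → ℕ → ℕ → ℕ := fun x n j =>
    if hj : j < 8 ^ n then (((S x n).toList[j]?).map fun s => (s ⟨j, hj⟩ : ℕ)).getD 0 else 0
  obtain ⟨g, hg, hev⟩ := exists_evade D b h fun x k => f' x k.unpair.1 k.unpair.2
  refine ⟨fun n => φ n fun j => ⟨g (Nat.pair n j), hg _⟩, fun n => hφ1 n _, fun x hx => ?_⟩
  obtain ⟨K, hK⟩ := eventually_atTop.1 (hev x hx)
  filter_upwards [eventually_ge_atTop K,
    (tendsto_pow_atTop_atTop_of_one_lt (one_lt_two (α := ℝ))).eventually_ge_atTop (‖x‖ ^ 2)]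
    with n hn hx2
  by_contra hc
  have hmem : (fun j => ⟨g (Nat.pair n j), hg _⟩) ∈ S x n :=
    mem_filter.2 ⟨mem_univ _, not_le.1 hc⟩
  have hcard : (S x n).card ≤ 8 ^ n := by
    have h1 : ((S x n).card : ℝ) * ((1 / 2 : ℝ) ^ n) ^ 2 ≤ ‖x‖ ^ 2 := by
      calc ((S x n).card : ℝ) * ((1 / 2 : ℝ) ^ n) ^ 2 = ∑ _s ∈ S x n, ((1 / 2 : ℝ) ^ n) ^ 2 := by
            rw [sum_const, nsmul_eq_mul]
        _ ≤ ∑ s ∈ S x n, ‖φ n s x‖ ^ 2 :=
            sum_le_sum fun s hs => pow_le_pow_left₀ (by positivity) (mem_filter.1 hs).2.le 2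
        _ ≤ ∑ s, ‖φ n s x‖ ^ 2 :=
            sum_le_sum_of_subset_of_nonneg (subset_univ _) fun _ _ _ => by positivity
        _ ≤ _ := hφ2 n x
    have h2 : (8 : ℝ) ^ n * ((1 / 2 : ℝ) ^ n) ^ 2 = 2 ^ n := by
      rw [← pow_mul, mul_comm n 2, pow_mul, ← mul_pow]
      norm_num
    have h3 : ((S x n).card : ℝ) ≤ 8 ^ n :=
      le_of_mul_le_mul_right (h1.trans (hx2.trans h2.ge)) (by positivity)
    exact_mod_cast h3
  obtain ⟨j, hj, hje⟩ := List.getElem_of_mem (mem_toList.2 hmem)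
  have hj8 : j < 8 ^ n := by
    rw [length_toList] at hj
    omega
  refine hK (Nat.pair n j) (hn.trans (Nat.left_le_pair n j)) ?_
  rw [Nat.unpair_pair]
  simp only [f', dif_pos hj8, List.getElem?_eq_getElem hj, hje, Option.map_some, Option.getD_some]

end Vale.Agent.P129
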