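import Mathlib

/-! A simultaneous Ramsey theorem. -/

namespace Vale.Agent.P129

open Filter Topology

/-- iterated ultrafilter quantifier -/
def UQ (P : (ℕ → ℕ) → Prop) : ℕ → ℕ → (ℕ → ℕ) → Prop
  | 0, _, w => P w
  | c + 1, n, w => ∀ᶠ k in (hyperfilter ℕ : Filter ℕ), UQ P c (n + 1) (Function.update w n k)

theorem UQ_or (P : (ℕ → ℕ) → Prop) (c n : ℕ) (w : ℕ → ℕ) :
    UQ P c n w ∨ UQ (fun v => ¬ P v) c n w := by
  induction c generalizing n w with
  | zero => exact em _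
  | succ c ih =>
    unfold UQ
    rw [← Ultrafilter.eventually_or]
    exact Eventually.of_forall fun k => ih _ _

theorem pick_ex (r : ℕ → ℕ) (F : ℕ → (ℕ → ℕ) → Prop) (m b : ℕ) (W : Finset (ℕ × (ℕ → ℕ))) :
    ∃ k, b < k ∧ ∀ N ≤ m, ∀ c ≤ r N, ∀ y ∈ W, UQ (F N) (c + 1) y.1 y.2 →
      UQ (F N) c (y.1 + 1) (Function.update y.2 y.1 k) := by
  have h1 : ∀ᶠ k in (hyperfilter ℕ : Filter ℕ), b < k :=
    Nat.hyperfilter_le_atTop (eventually_gt_atTop b)
  have h2 : ∀ᶠ k in (hyperfilter ℕ : Filter ℕ), ∀ N ∈ Set.Iic m, ∀ c ∈ Set.Iic (r N), ∀ y ∈ W,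
      UQ (F N) (c + 1) y.1 y.2 → UQ (F N) c (y.1 + 1) (Function.update y.2 y.1 k) := by
    refine (eventually_all_finite (Set.finite_Iic m)).2 fun N _ => ?_
    refine (eventually_all_finite (Set.finite_Iic (r N))).2 fun c _ => ?_
    refine (eventually_all_finset W).2 fun y _ => ?_
    by_cases h : UQ (F N) (c + 1) y.1 y.2
    · exact Eventually.mono h fun k hk _ => hk
    · exact Eventually.of_forall fun k hk => absurd hk h
  obtain ⟨k, hk1, hk2⟩ := (h1.and h2).exists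
  exact ⟨k, hk1, fun N hN c hc => hk2 N hN c hc⟩

theorem ramsey_key (r : ℕ → ℕ) (F : ℕ → (ℕ → ℕ) → Prop)
    (hF : ∀ N w w', (∀ i < r N, w i = w' i) → F N w → F N w')
    (hQ : ∀ N, UQ (F N) (r N) 0 fun _ => 0) :
    ∃ a : ℕ → ℕ, StrictMono a ∧ ∀ N (w : ℕ → ℕ), StrictMono w → N ≤ w 0 → F N (a ∘ w) := by
  classical
  choose pk hpk1 hpk2 using pick_ex r F
  let st : ℕ → ℕ × Finset (ℕ × (ℕ → ℕ)) := fun m => Nat.rec (0, {(0, fun _ => 0)})
    (fun m s => (pk m s.1 s.2, s.2 ∪ s.2.image fun y =>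
      (y.1 + 1, Function.update y.2 y.1 (pk m s.1 s.2)))) m
  let a : ℕ → ℕ := fun m => pk m (st m).1 (st m).2
  have hst1 : ∀ m, (st (m + 1)).1 = a m := fun m => rfl
  have hst2 : ∀ m, (st (m + 1)).2 = (st m).2 ∪ (st m).2.image fun y =>
      (y.1 + 1, Function.update y.2 y.1 (a m)) := fun m => rfl
  have ha : StrictMono a := strictMono_nat_of_lt_succ fun m => hpk1 (m + 1) (a m) _
  have hmono : Monotone fun m => (st m).2 := monotone_nat_of_le_succ fun m => by
    simp only [hst2]; exact Finset.subset_union_left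
  refine ⟨a, ha, fun N w hw hN => ?_⟩
  let p : ℕ → ℕ → ℕ := fun n => Nat.rec (fun _ => 0)
    (fun n v => Function.update v n (a (w n))) n
  have hp : ∀ n, p (n + 1) = Function.update (p n) n (a (w n)) := fun n => rfl
  have hmem : ∀ n, (n, p n) ∈ (st (w n)).2 := by
    intro n
    induction n with
    | zero => exact hmono (Nat.zero_le _) (Finset.mem_singleton_self _)
    | succ n ih =>
      refine hmono (show w n + 1 ≤ w (n + 1) from hw (Nat.lt_succ_self n)) ?_
      simp only [hst2]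
      exact Finset.mem_union_right _ (Finset.mem_image.2 ⟨_, ih, rfl⟩)
  have hq : ∀ n c, n + c = r N → UQ (F N) c n (p n) := by
    intro n
    induction n with
    | zero => intro c hc; rw [zero_add] at hc; rw [hc]; exact hQ N
    | succ n ih =>
      intro c hc
      exact hpk2 (w n) (st (w n)).1 (st (w n)).2 N (hN.trans (hw.monotone (Nat.zero_le n))) c
        (by omega) _ (hmem n) (ih (c + 1) (by omega))
  have hval : ∀ n i, i < n → p n i = a (w i) := by
    intro n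
    induction n with
    | zero => intro i hi; omega
    | succ n ih =>
      intro i hi
      rw [hp]
      by_cases h : i = n
      · subst h; simp
      · rw [Function.update_of_ne h]; exact ih i (by omega)
  exact hF N _ _ (fun i hi => hval _ i hi) (hq (r N) 0 rfl)

theorem ramsey_seq (r : ℕ → ℕ) (F : ℕ → (ℕ → ℕ) → Prop)
    (hF : ∀ N w w', (∀ i < r N, w i = w' i) → F N w → F N w') :
    (∃ N, ∃ a : ℕ → ℕ, StrictMono a ∧ ∀ w : ℕ → ℕ, StrictMono w → ¬ F N (a ∘ w)) ∨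
      ∃ a : ℕ → ℕ, StrictMono a ∧ ∀ N (w : ℕ → ℕ), StrictMono w → N ≤ w 0 → F N (a ∘ w) := by
  by_cases h : ∀ N, UQ (F N) (r N) 0 fun _ => 0
  · exact Or.inr (ramsey_key r F hF h)
  · push Not at h
    obtain ⟨N, hN⟩ := h
    have h2 := (UQ_or (F N) (r N) 0 fun _ => 0).resolve_left hN
    obtain ⟨a, ha, ha2⟩ := ramsey_key (fun _ => r N) (fun _ v => ¬ F N v)
      (fun _ w w' hw h1 h3 => h1 (hF N w' w (fun i hi => (hw i hi).symm) h3)) (fun _ => h2)
    exact Or.inl ⟨N, a, ha, fun w hw => ha2 0 w hw (Nat.zero_le _)⟩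

end Vale.Agent.P129
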