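import Vale.Agent.P129.JDefs
import Vale.Agent.P129.Ramsey

/-! A homogeneous sequence of functionals. -/

namespace Vale.Agent.P129

open Filter Topology

variable {𝕜 X : Type*} [RCLike 𝕜] [NormedAddCommGroup X] [NormedSpace 𝕜 X]

theorem hom_dual (hX : ¬ FiniteDimensional 𝕜 X) : ¬ FiniteDimensional 𝕜 (X →L[𝕜] 𝕜) := by
  intro h
  have h' : FiniteDimensional 𝕜 (StrongDual 𝕜 (StrongDual 𝕜 X)) :=
    inferInstanceAs (FiniteDimensional 𝕜 ((X →L[𝕜] 𝕜) →L[𝕜] 𝕜))
  exact hX (FiniteDimensional.of_injective (V₂ := StrongDual 𝕜 (StrongDual 𝕜 X))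
    (NormedSpace.inclusionInDoubleDual 𝕜 X).toLinearMap
    (NormedSpace.inclusionInDoubleDualLi 𝕜 (E := X)).injective)

theorem hom_sum (N : ℕ) (v : ℕ → 𝕜) (g : 𝕜) {ε : ℝ} (hg : ε ≤ ‖g‖)
    (hv : ∀ i, ‖g - v i‖ ≤ ε / 2) : N * (ε / 2) ≤ ‖∑ i ∈ Finset.range N, v i‖ := by
  have h1 : ∑ i ∈ Finset.range N, v i = (N : 𝕜) * g - ∑ i ∈ Finset.range N, (g - v i) := by
    rw [Finset.sum_sub_distrib, Finset.sum_const, Finset.card_range, nsmul_eq_mul]
    ring
  have h2 : ‖∑ i ∈ Finset.range N, (g - v i)‖ ≤ N * (ε / 2) := by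
    refine (norm_sum_le _ _).trans ((Finset.sum_le_card_nsmul _ _ _ fun i _ => hv i).trans ?_)
    rw [Finset.card_range, nsmul_eq_mul]
  have h3 := norm_sub_norm_le ((N : 𝕜) * g) (∑ i ∈ Finset.range N, (g - v i))
  rw [← h1, norm_mul, RCLike.norm_natCast] at h3
  have h4 := mul_le_mul_of_nonneg_left hg (Nat.cast_nonneg (α := ℝ) N)
  linarith

theorem exists_homog (hX : ¬ FiniteDimensional 𝕜 X) {ε : ℝ} (hε : 0 < ε) (hS : Star 𝕜 X ε) :
    ∃ (θ : ℕ → X →L[𝕜] 𝕜) (R : ℝ), (∀ k, ‖θ k‖ ≤ R) ∧ Homog θ (ε / 2) := by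
  obtain ⟨R, θ, -, hR, hsep⟩ := exists_seq_norm_le_one_le_norm_sub (hom_dual hX)
  rcases ramsey_seq (fun N => 2 * N) (fun N w => N * (ε / 2) ≤
      ‖∑ i ∈ Finset.range N, (θ (w (2 * i)) - θ (w (2 * i + 1)))‖) (fun N w w' hw h => by
        rwa [Finset.sum_congr rfl fun i hi => by
          have := Finset.mem_range.1 hi
          rw [← hw (2 * i) (by omega), ← hw (2 * i + 1) (by omega)]]) with
    ⟨N, a, ha, h⟩ | ⟨a, ha, h⟩
  · exfalso
    obtain ⟨d, hd⟩ : ∃ d : ℕ → X →L[𝕜] 𝕜, ∀ i, d i = θ (a (2 * i)) - θ (a (2 * i + 1)) :=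
      ⟨_, fun _ => rfl⟩
    obtain ⟨x, hx, hf⟩ := hS d 1 one_pos fun k => by
      rw [hd]
      exact hsep (ha (Nat.lt_succ_self _)).ne
    have hb : Bornology.IsBounded ({z : 𝕜 | ε ≤ ‖z‖} ∩ Metric.closedBall 0 (R + R)) :=
      Metric.isBounded_closedBall.subset Set.inter_subset_right
    have hcl : IsClosed ({z : 𝕜 | ε ≤ ‖z‖} ∩ Metric.closedBall 0 (R + R)) :=
      (isClosed_le continuous_const continuous_norm).inter Metric.isClosed_closedBall
    obtain ⟨g, hg, φ, hφ, hlim⟩ := tendsto_subseq_of_frequently_bounded hb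
      (x := fun k => d k x) (hf.mono fun k hk => ⟨by
        rw [mul_one] at hk
        exact hk.le, by
        rw [mem_closedBall_zero_iff]
        have h1 : ‖d k‖ ≤ R + R := by
          rw [hd]
          exact (norm_sub_le _ _).trans (add_le_add (hR _) (hR _))
        exact ((d k).le_opNorm x).trans
          ((mul_le_of_le_one_right (norm_nonneg _) hx).trans h1)⟩)
    rw [hcl.closure_eq] at hg
    obtain ⟨i0, hi0⟩ := Metric.tendsto_atTop.1 hlim (ε / 2) (by linarith)
    refine h (fun p => 2 * φ (p / 2 + i0) + p % 2) (strictMono_nat_of_lt_succ fun p => ?_) ?_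
    · rcases Nat.mod_two_eq_zero_or_one p with h1 | h1
      · rw [show (p + 1) / 2 = p / 2 by omega]
        omega
      · have h2 := hφ (show p / 2 + i0 < (p + 1) / 2 + i0 by omega)
        omega
    · have h1 := hom_sum N (fun i => d (φ (i + i0)) x) g hg.1 fun i => by
        have h2 := hi0 (i + i0) (by omega)
        rw [dist_comm, dist_eq_norm] at h2
        exact h2.le
      have h2 : ∑ i ∈ Finset.range N,
          (θ ((a ∘ fun p => 2 * φ (p / 2 + i0) + p % 2) (2 * i)) -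
            θ ((a ∘ fun p => 2 * φ (p / 2 + i0) + p % 2) (2 * i + 1))) =
          ∑ i ∈ Finset.range N, d (φ (i + i0)) := by
        refine Finset.sum_congr rfl fun i _ => ?_
        simp only [Function.comp]
        rw [hd, show 2 * i / 2 = i by omega, show (2 * i + 1) / 2 = i by omega,
          show 2 * i % 2 = 0 by omega, show (2 * i + 1) % 2 = 1 by omega, add_zero]
      beta_reduce
      rw [h2]
      rw [← ContinuousLinearMap.sum_apply] at h1
      exact h1.trans ((ContinuousLinearMap.le_opNorm _ x).trans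
        (mul_le_of_le_one_right (norm_nonneg _) hx))
  · exact ⟨fun k => θ (a k), R, fun k => hR _, fun N w hw hN => h N w hw hN⟩

end Vale.Agent.P129
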