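import Mathlib

/-! Definitions for the approximate Josefson-Nissenzweig theorem. -/

namespace Vale.Agent.P129

open Filter

/-- every sequence of functionals bounded below is seen by one vector -/
def Star (𝕜 X : Type*) [RCLike 𝕜] [NormedAddCommGroup X] [NormedSpace 𝕜 X] (ε : ℝ) : Prop :=
  ∀ (θ : ℕ → X →L[𝕜] 𝕜) (r : ℝ), 0 < r → (∀ k, r ≤ ‖θ k‖) →
    ∃ x : X, ‖x‖ ≤ 1 ∧ ∃ᶠ k in atTop, ε * r < ‖θ k x‖

/-- far out alternating sums have large norm -/
def Homog {𝕜 X : Type*} [RCLike 𝕜] [NormedAddCommGroup X] [NormedSpace 𝕜 X]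
    (θ : ℕ → X →L[𝕜] 𝕜) (δ : ℝ) : Prop :=
  ∀ (N : ℕ) (w : ℕ → ℕ), StrictMono w → N ≤ w 0 →
    N * δ ≤ ‖∑ i ∈ Finset.range N, (θ (w (2 * i)) - θ (w (2 * i + 1)))‖

/-- one pair from each subsequence gives a large sum -/
def Spread {𝕜 X : Type*} [RCLike 𝕜] [NormedAddCommGroup X] [NormedSpace 𝕜 X]
    (θ : ℕ → X →L[𝕜] 𝕜) (δ : ℝ) : Prop :=
  ∀ (ι : Type) [Fintype ι] (e : ι → ℕ → ℕ), (∀ t, Tendsto (e t) atTop atTop) → ∀ j : ℕ,
    ∃ s s' : ι → ℕ, (∀ t, j ≤ s t ∧ j ≤ s' t) ∧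
      Fintype.card ι * δ ≤ ‖∑ t, (θ (e t (s t)) - θ (e t (s' t)))‖

/-- nodes of the binary tree -/
def Node : ℕ → Type
  | 0 => Unit
  | n + 1 => Node n × Bool

instance instFintypeNode : (n : ℕ) → Fintype (Node n)
  | 0 => inferInstanceAs (Fintype Unit)
  | n + 1 => @instFintypeProd (Node n) Bool (instFintypeNode n) _

instance instNonemptyNode : (n : ℕ) → Nonempty (Node n)
  | 0 => ⟨()⟩
  | n + 1 => (instNonemptyNode n).elim fun t => ⟨(t, true)⟩

/-- Rademacher signs -/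
def rad (𝕜 : Type*) [RCLike 𝕜] : (m : ℕ) → ℕ → Node m → 𝕜
  | 0, _, _ => 0
  | m + 1, i, p => if i = m then (if p.2 then 1 else -1) else rad 𝕜 m i p.1

theorem sum_node_succ {M : Type*} [AddCommMonoid M] (m : ℕ) (F : Node (m + 1) → M) :
    ∑ p, F p = ∑ t : Node m, (F (t, true) + F (t, false)) := by
  have := Fintype.sum_prod_type (α₁ := Node m) (α₂ := Bool) F
  simp only [Fintype.sum_bool] at this
  exact this

theorem card_node (m : ℕ) : Fintype.card (Node m) = 2 ^ m := by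
  induction m with
  | zero => rfl
  | succ m ih =>
    have : Fintype.card (Node (m + 1)) = Fintype.card (Node m) * Fintype.card Bool :=
      Fintype.card_prod _ _
    rw [this, ih, pow_succ]; simp

theorem norm_rad_le (𝕜 : Type*) [RCLike 𝕜] (m i : ℕ) (t : Node m) : ‖rad 𝕜 m i t‖ ≤ 1 := by
  induction m with
  | zero => simp [rad]
  | succ m ih =>
    unfold rad
    split_ifs
    · simp
    · simp
    · exact ih _

end Vale.Agent.P129
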