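import Vale.Agent.P129.JDefs

/-! From homogeneity to spreading. -/

namespace Vale.Agent.P129

open Filter Topology

variable {𝕜 X : Type*} [RCLike 𝕜] [NormedAddCommGroup X] [NormedSpace 𝕜 X]

namespace SpreadAux

theorem exists_sel (E : ℕ → ℕ → ℕ) (hE : ∀ p, Tendsto (E p) atTop atTop) (j N : ℕ) :
    ∃ σ : ℕ → ℕ, (∀ p, j ≤ σ p) ∧ StrictMono (fun p => E p (σ p)) ∧ N ≤ E 0 (σ 0) := by
  have key : ∀ p b : ℕ, ∃ k, j ≤ k ∧ b ≤ E p k := by
    intro p b
    have h1 : ∀ᶠ k in atTop, b ≤ E p k := (hE p).eventually (eventually_ge_atTop b)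
    have h2 : ∀ᶠ k in atTop, j ≤ k := eventually_ge_atTop j
    obtain ⟨k, hk1, hk2⟩ := (h2.and h1).exists
    exact ⟨k, hk1, hk2⟩
  choose c hc1 hc2 using key
  let σ : ℕ → ℕ := fun p => Nat.rec (c 0 N) (fun q s => c (q + 1) (E q s + 1)) p
  have hs0 : σ 0 = c 0 N := rfl
  have hs : ∀ q, σ (q + 1) = c (q + 1) (E q (σ q) + 1) := fun q => rfl
  refine ⟨σ, ?_, ?_, ?_⟩
  · intro p
    cases p with
    | zero => rw [hs0]; exact hc1 _ _
    | succ q => rw [hs]; exact hc1 _ _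
  · apply strictMono_nat_of_lt_succ
    intro q
    have := hc2 (q + 1) (E q (σ q) + 1)
    rw [← hs] at this
    exact this
  · rw [hs0]; exact hc2 _ _

end SpreadAux

theorem spread_of_homog (θ : ℕ → X →L[𝕜] 𝕜) (δ : ℝ) (h : Homog θ δ) : Spread θ δ := by
  intro ι _ e he j
  rcases isEmpty_or_nonempty ι with hι | hι
  · refine ⟨fun _ => j, fun _ => j, fun t => ⟨le_rfl, le_rfl⟩, ?_⟩
    simp
  · classical
    set N := Fintype.card ι with hN
    let φ : ι ≃ Fin N := Fintype.equivFin ι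
    let T : ℕ → ι := fun i => if hi : i < N then φ.symm ⟨i, hi⟩ else Classical.arbitrary ι
    have hT : ∀ i : Fin N, T i = φ.symm i := by
      intro i
      simp only [T, i.isLt, dif_pos, Fin.eta]
    obtain ⟨σ, h1, h2, h3⟩ :=
      SpreadAux.exists_sel (fun p => e (T (p / 2))) (fun p => he _) j N
    refine ⟨fun t => σ (2 * (φ t : ℕ)), fun t => σ (2 * (φ t : ℕ) + 1),
      fun t => ⟨h1 _, h1 _⟩, ?_⟩
    have hh := h N (fun p => e (T (p / 2)) (σ p)) h2 h3
    rw [Finset.sum_range] at hh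
    rw [← φ.symm.sum_comp]
    convert hh using 3 with i _
    have a1 : 2 * (i : ℕ) / 2 = i := by omega
    have a2 : (2 * (i : ℕ) + 1) / 2 = i := by omega
    simp only [a1, a2, hT, Equiv.apply_symm_apply]

end Vale.Agent.P129
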