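import Vale.Agent.P129.JDefs

/-! Ultralimits. -/

namespace Vale.Agent.P129

open Filter Topology

variable {𝕜 X : Type*} [RCLike 𝕜] [NormedAddCommGroup X] [NormedSpace 𝕜 X]

theorem ulim (φ : ℕ → X →L[𝕜] 𝕜) (R : ℝ) (h : ∀ j, ‖φ j‖ ≤ R) :
    ∃ η : X →L[𝕜] 𝕜, ‖η‖ ≤ R ∧
      ∀ x, Tendsto (fun j => φ j x) (hyperfilter ℕ : Filter ℕ) (𝓝 (η x)) := by
  have hR : 0 ≤ R := (norm_nonneg _).trans (h 0)
  have hb : ∀ j x, ‖φ j x‖ ≤ R * ‖x‖ := fun j x => (φ j).le_of_opNorm_le (h j) x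
  have key : ∀ x, ∃ a : 𝕜, ‖a‖ ≤ R * ‖x‖ ∧
      Tendsto (fun j => φ j x) (hyperfilter ℕ : Filter ℕ) (𝓝 a) := by
    intro x
    haveI : ProperSpace 𝕜 := FiniteDimensional.proper_rclike 𝕜 𝕜
    obtain ⟨a, ha, hl⟩ := (isCompact_closedBall (0 : 𝕜) (R * ‖x‖)).ultrafilter_le_nhds
      ((hyperfilter ℕ).map fun j => φ j x) (by
        rw [Ultrafilter.coe_map, le_principal_iff, mem_map]
        exact univ_mem' fun j => mem_closedBall_zero_iff.2 (hb j x))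
    exact ⟨a, mem_closedBall_zero_iff.1 ha, hl⟩
  choose L hL1 hL2 using key
  have hadd : ∀ x y, L (x + y) = L x + L y := fun x y =>
    tendsto_nhds_unique (hL2 (x + y)) (by simpa only [map_add] using (hL2 x).add (hL2 y))
  have hsmul : ∀ (c : 𝕜) x, L (c • x) = c • L x := fun c x =>
    tendsto_nhds_unique (hL2 (c • x)) (by simpa only [map_smul] using (hL2 x).const_smul c)
  let f : X →ₗ[𝕜] 𝕜 := { toFun := L, map_add' := hadd, map_smul' := hsmul }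
  exact ⟨f.mkContinuous R hL1, f.mkContinuous_norm_le hR hL1, hL2⟩

end Vale.Agent.P129
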