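import Vale.Agent.P129.Tree
import Vale.Agent.P129.Hom
import Vale.Agent.P129.ULim
import Vale.Agent.P129.Bessel
import Vale.Agent.P129.Spread

/-! The approximate Josefson-Nissenzweig theorem. -/

namespace Vale.Agent.P129

open Filter Topology

variable {𝕜 X : Type*} [RCLike 𝕜] [NormedAddCommGroup X] [NormedSpace 𝕜 X]

theorem not_star (hX : ¬ FiniteDimensional 𝕜 X) {ε : ℝ} (hε : 0 < ε) : ¬ Star 𝕜 X ε := by
  intro hS
  obtain ⟨θ, R, hR, hH⟩ := exists_homog hX hε hS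
  have hδ : 0 < ε / 2 := by positivity
  have hsp := spread_of_homog θ (ε / 2) hH
  obtain ⟨e, x, hx1, hx⟩ := tree θ R hR hδ hS hsp
  have hR0 : 0 ≤ R := (norm_nonneg _).trans (hR 0)
  have hle : (hyperfilter ℕ : Filter ℕ) ≤ atTop := Nat.hyperfilter_le_atTop
  have hη : ∀ (m : ℕ) (t : Node m), ∃ η : X →L[𝕜] 𝕜, ‖η‖ ≤ R ∧
      ∀ y, Tendsto (fun j => θ (e m t j) y) (hyperfilter ℕ : Filter ℕ) (𝓝 (η y)) :=
    fun m t => ulim (fun j => θ (e m t j)) R (fun j => hR _)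
  choose η hηR hηT using hη
  obtain ⟨ξ', hξ'⟩ : ∃ ξ' : ℕ → ℕ → X →L[𝕜] 𝕜,
      ξ' = fun n m => ((2 : 𝕜) ^ m)⁻¹ • ∑ t : Node m, rad 𝕜 m n t • η m t := ⟨_, rfl⟩
  have h2pos : ∀ m : ℕ, (0 : ℝ) < 2 ^ m := fun m => by positivity
  have hn2 : ∀ m : ℕ, ‖((2 : 𝕜) ^ m)⁻¹‖ = ((2 : ℝ) ^ m)⁻¹ := by
    intro m
    rw [norm_inv, norm_pow, RCLike.norm_two]
  have happ : ∀ n m y, ‖ξ' n m y‖ = ((2 : ℝ) ^ m)⁻¹ * ‖∑ t : Node m, rad 𝕜 m n t * η m t y‖ := by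
    intro n m y
    rw [hξ']
    simp only [ContinuousLinearMap.smul_apply, ContinuousLinearMap.sum_apply, smul_eq_mul]
    rw [norm_mul, hn2]
  have hξ'R : ∀ n m, ‖ξ' n m‖ ≤ R := by
    intro n m
    rw [hξ']
    simp only
    rw [norm_smul, hn2]
    have h1 : ‖∑ t : Node m, rad 𝕜 m n t • η m t‖ ≤ 2 ^ m * R := by
      calc ‖∑ t : Node m, rad 𝕜 m n t • η m t‖ ≤ ∑ t : Node m, ‖rad 𝕜 m n t • η m t‖ :=
            norm_sum_le _ _
        _ ≤ ∑ _t : Node m, R := by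
            refine Finset.sum_le_sum fun t _ => ?_
            rw [norm_smul]
            calc ‖rad 𝕜 m n t‖ * ‖η m t‖ ≤ 1 * R :=
                  mul_le_mul (norm_rad_le 𝕜 m n t) (hηR m t) (norm_nonneg _) zero_le_one
              _ = R := one_mul R
        _ = 2 ^ m * R := by
            rw [Finset.sum_const, Finset.card_univ, card_node, nsmul_eq_mul]
            push_cast
            ring
    calc ((2 : ℝ) ^ m)⁻¹ * ‖∑ t : Node m, rad 𝕜 m n t • η m t‖ ≤ ((2 : ℝ) ^ m)⁻¹ * (2 ^ m * R) :=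
          mul_le_mul_of_nonneg_left h1 (inv_nonneg.2 (h2pos m).le)
      _ = R := by
          have := (h2pos m).ne'
          field_simp
  have hξ : ∀ n : ℕ, ∃ ξ : X →L[𝕜] 𝕜, ‖ξ‖ ≤ R ∧
      ∀ y, Tendsto (fun m => ξ' n m y) (hyperfilter ℕ : Filter ℕ) (𝓝 (ξ y)) :=
    fun n => ulim (ξ' n) R (hξ'R n)
  choose ξ _hξR hξT using hξ
  obtain ⟨c, hc⟩ : ∃ c : ℝ, c = ε * (ε / 2) / 2 := ⟨_, rfl⟩
  have hc0 : 0 < c := by rw [hc]; positivity
  have hlow : ∀ n m, n < m → c ≤ ‖ξ' n m (x n)‖ := by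
    intro n m hnm
    obtain ⟨val, hval, hb⟩ := hx m n hnm
    have hv : ∀ t, η m t (x n) = val t := fun t =>
      tendsto_nhds_unique (hηT m t (x n)) ((hval t).mono_left hle)
    rw [happ]
    simp only [hv]
    rw [← hc] at hb
    calc c = ((2 : ℝ) ^ m)⁻¹ * (2 ^ m * c) := by
          have := (h2pos m).ne'
          field_simp
      _ ≤ _ := mul_le_mul_of_nonneg_left hb (inv_nonneg.2 (h2pos m).le)
  have hlow' : ∀ n, c ≤ ‖ξ n‖ := by
    intro n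
    have h1 : c ≤ ‖ξ n (x n)‖ := by
      refine ge_of_tendsto (hξT n (x n)).norm ?_
      refine Filter.Eventually.filter_mono hle ?_
      filter_upwards [eventually_gt_atTop n] with m hm using hlow n m hm
    calc c ≤ ‖ξ n (x n)‖ := h1
      _ ≤ ‖ξ n‖ * ‖x n‖ := (ξ n).le_opNorm _
      _ ≤ ‖ξ n‖ * 1 := mul_le_mul_of_nonneg_left (hx1 n) (norm_nonneg _)
      _ = ‖ξ n‖ := mul_one _
  obtain ⟨y, _hy1, hy⟩ := hS ξ c hc0 hlow'
  have hbes : ∀ M m, M ≤ m → ∑ i ∈ Finset.range M, ‖ξ' i m y‖ ^ 2 ≤ (R * ‖y‖) ^ 2 := by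
    intro M m hMm
    have h1 := bessel (𝕜 := 𝕜) m (fun t => η m t y) (R * ‖y‖) (fun t =>
      ((η m t).le_opNorm y).trans (mul_le_mul_of_nonneg_right (hηR m t) (norm_nonneg _)))
    calc ∑ i ∈ Finset.range M, ‖ξ' i m y‖ ^ 2 ≤ ∑ i ∈ Finset.range m, ‖ξ' i m y‖ ^ 2 :=
          Finset.sum_le_sum_of_subset_of_nonneg (Finset.range_mono hMm)
            (fun _ _ _ => sq_nonneg _)
      _ = (((2 : ℝ) ^ m)⁻¹) ^ 2 *
            ∑ i ∈ Finset.range m, ‖∑ t : Node m, rad 𝕜 m i t * η m t y‖ ^ 2 := by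
          rw [Finset.mul_sum]
          refine Finset.sum_congr rfl fun i _ => ?_
          rw [happ, mul_pow]
      _ ≤ (((2 : ℝ) ^ m)⁻¹) ^ 2 * (2 ^ m * (R * ‖y‖)) ^ 2 :=
          mul_le_mul_of_nonneg_left h1 (sq_nonneg _)
      _ = (R * ‖y‖) ^ 2 := by
          have := (h2pos m).ne'
          field_simp
  have hbes' : ∀ M, ∑ i ∈ Finset.range M, ‖ξ i y‖ ^ 2 ≤ (R * ‖y‖) ^ 2 := by
    intro M
    have hT : Tendsto (fun m => ∑ i ∈ Finset.range M, ‖ξ' i m y‖ ^ 2) (hyperfilter ℕ : Filter ℕ)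
        (𝓝 (∑ i ∈ Finset.range M, ‖ξ i y‖ ^ 2)) :=
      tendsto_finset_sum _ fun i _ => ((hξT i y).norm).pow 2
    refine le_of_tendsto hT ?_
    refine Filter.Eventually.filter_mono hle ?_
    filter_upwards [eventually_ge_atTop M] with m hm using hbes M m hm
  have hsum : Summable (fun i => ‖ξ i y‖ ^ 2) :=
    summable_of_sum_range_le (fun _ => sq_nonneg _) hbes'
  have h0 := hsum.tendsto_atTop_zero
  have hpos : 0 < (ε * c) ^ 2 := by positivity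
  have hev : ∀ᶠ k in atTop, ‖ξ k y‖ ^ 2 < (ε * c) ^ 2 := h0.eventually (gt_mem_nhds hpos)
  obtain ⟨k, hk1, hk2⟩ := (hy.and_eventually hev).exists
  have hec : 0 ≤ ε * c := by positivity
  nlinarith [norm_nonneg (ξ k y)]

end Vale.Agent.P129
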