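import Mathlib

/-! A separable quotient from a rapidly weak-star null sequence. -/

namespace Vale.Agent.P129

open Filter

namespace SQA

open Finset

theorem rec_exists {α : Type*} (a0 : α) (G : ℕ → (ℕ → α) → Prop) (h0 : ∀ u, G 0 u)
    (hs : ∀ n u, G n u → ∃ y, G (n + 1) (Function.update u n y)) :
    ∃ a : ℕ → α, ∀ n, ∃ u, G n u ∧ ∀ i < n, u i = a i := by
  have : Nonempty α := ⟨a0⟩
  choose! F hF using hs
  obtain ⟨U, U0, Us⟩ : ∃ U : ℕ → ℕ → α, U 0 = (fun _ => a0) ∧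
      ∀ n, U (n + 1) = Function.update (U n) n (F n (U n)) :=
    ⟨fun n => Nat.rec (fun _ => a0) (fun n u => Function.update u n (F n u)) n, rfl, fun _ => rfl⟩
  refine ⟨fun i => U (i + 1) i, fun n => ⟨U n, ?_, ?_⟩⟩
  · induction n with
    | zero => exact h0 _
    | succ n ih =>
      rw [Us]
      exact hF n _ ih
  · induction n with
    | zero => exact fun i hi => absurd hi (by omega)
    | succ n ih =>
      intro i hi
      rcases (Nat.lt_succ_iff.1 hi).lt_or_eq with h | rfl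
      · rw [Us, Function.update_of_ne h.ne]
        exact ih i h
      · rfl

variable {𝕜 X : Type*} [RCLike 𝕜] [NormedAddCommGroup X] [NormedSpace 𝕜 X]

/-- vectors on which the functionals decay geometrically -/
def fast (ψ : ℕ → X →L[𝕜] 𝕜) : Submodule 𝕜 X where
  carrier := {x | ∃ C : ℝ, ∀ k, ‖ψ k x‖ ≤ C * (1 / 2) ^ k}
  zero_mem' := ⟨0, fun k => by simp⟩
  add_mem' := by
    rintro a b ⟨C, hC⟩ ⟨C', hC'⟩
    refine ⟨C + C', fun k => ?_⟩
    rw [map_add, add_mul]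
    exact (norm_add_le _ _).trans (add_le_add (hC k) (hC' k))
  smul_mem' := by
    rintro c a ⟨C, hC⟩
    refine ⟨‖c‖ * C, fun k => ?_⟩
    rw [map_smul, norm_smul, mul_assoc]
    exact mul_le_mul_of_nonneg_left (hC k) (norm_nonneg _)

theorem mem_fast {ψ : ℕ → X →L[𝕜] 𝕜} {x : X}
    (h : ∀ᶠ n in atTop, ‖ψ n x‖ ≤ (1 / 2 : ℝ) ^ n) : x ∈ fast ψ := by
  obtain ⟨N, hN⟩ := eventually_atTop.1 h
  refine ⟨1 + ∑ k ∈ range N, ‖ψ k x‖ / (1 / 2) ^ k, fun k => ?_⟩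
  have h0 : (0 : ℝ) < (1 / 2) ^ k := by positivity
  have h1 : 0 ≤ ∑ k ∈ range N, ‖ψ k x‖ / (1 / 2 : ℝ) ^ k := by positivity
  rcases lt_or_ge k N with hk | hk
  · rw [← div_le_iff₀ h0]
    have := single_le_sum (f := fun k => ‖ψ k x‖ / (1 / 2 : ℝ) ^ k) (fun i _ => by positivity)
      (mem_range.2 hk)
    linarith
  · have := hN k hk
    nlinarith

theorem step {ψ : ℕ → X →L[𝕜] 𝕜} (hψ : ∀ n, 2 / 5 ≤ ‖ψ n‖) (hE : Dense (fast ψ : Set X)) (n : ℕ)
    (x : ℕ → X) (f : ℕ → X →L[𝕜] 𝕜) (hx : ∀ i < n, x i ∈ fast ψ)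
    (hb : ∀ i < n, ∀ j < n, f i (x j) = if i = j then 1 else 0) :
    ∃ (x' : X) (f' : X →L[𝕜] 𝕜), x' ∈ fast ψ ∧ f' x' = 1 ∧ (∀ i < n, f' (x i) = 0) ∧
      (∀ i < n, f i x' = 0) ∧ ∀ y, ∀ C : ℝ, (∀ k, ‖ψ k y‖ ≤ C * (1 / 2) ^ k) →
        ‖f' y‖ * ‖x'‖ ≤ (1 / 2) ^ n * (C + ‖y‖) := by
  obtain ⟨T, hT⟩ : ∃ T : X →L[𝕜] X, ∀ y, T y = y - ∑ i ∈ range n, f i y • x i :=
    ⟨1 - ∑ i ∈ range n, (f i).smulRight (x i), fun y => by simp⟩
  choose! C hC using hx
  have hC0 : ∀ i < n, 0 ≤ C i := fun i hi => by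
    simpa using (norm_nonneg _).trans (hC i hi 0)
  obtain ⟨c, hc⟩ : ∃ c, c = ∑ i ∈ range n, ‖f i‖ * C i := ⟨_, rfl⟩
  have c0 : 0 ≤ c := hc ▸ sum_nonneg fun i hi => mul_nonneg (norm_nonneg _) (hC0 i (mem_range.1 hi))
  have hP : ∀ k y, ‖ψ k (T y) - ψ k y‖ ≤ c * (1 / 2) ^ k * ‖y‖ := fun k y => by
    rw [hT, map_sub, sub_sub_cancel_left, norm_neg, map_sum, hc, sum_mul, sum_mul]
    refine norm_sum_le_of_le _ fun i hi => ?_
    rw [map_smul, norm_smul]
    refine (mul_le_mul ((f i).le_opNorm y) (hC i (mem_range.1 hi) k) (norm_nonneg _)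
      (by positivity)).trans (le_of_eq (by ring))
  have hTx : ∀ j < n, T (x j) = 0 := fun j hj => by
    rw [hT, sum_congr rfl fun i hi => by rw [hb i (mem_range.1 hi) j hj], sub_eq_zero]
    simp [hj]
  have hfT : ∀ i < n, ∀ y, f i (T y) = 0 := fun i hi y => by
    rw [hT, map_sub, map_sum, sum_congr rfl fun j hj => by
      rw [map_smul, hb i hi j (mem_range.1 hj)], sub_eq_zero]
    simp [hi]
  have hTT : ∀ y, T (T y) = T y := fun y => by
    rw [hT (T y), sum_eq_zero fun i hi => by rw [hfT i (mem_range.1 hi), zero_smul], sub_zero]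
  obtain ⟨k, hk⟩ : ∃ k : ℕ, (1 / 2 : ℝ) ^ k <
      (1 / 2) ^ n / (10 * (‖T‖ + 1) * (1 + c)) :=
    exists_pow_lt_of_lt_one (by positivity) (by norm_num)
  rw [lt_div_iff₀ (by positivity)] at hk
  have p1 : (1 / 2 : ℝ) ^ n ≤ 1 := pow_le_one₀ (by norm_num) (by norm_num)
  have pk : (0 : ℝ) < (1 / 2) ^ k := by positivity
  have T0 := norm_nonneg T
  have hck : c * (1 / 2) ^ k ≤ 1 / 10 := by
    have : 0 ≤ (1 / 2 : ℝ) ^ k * (‖T‖ * (1 + c)) := by positivity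
    nlinarith
  obtain ⟨y0, hy0, hg⟩ : ∃ y0 ∈ fast ψ, 1 / 10 * ‖y0‖ < ‖ψ k (T y0)‖ := by
    by_contra hn
    push Not at hn
    have h1 : ∀ y, ‖ψ k (T y)‖ ≤ 1 / 10 * ‖y‖ := fun y =>
      closure_minimal (t := {y | ‖ψ k (T y)‖ ≤ 1 / 10 * ‖y‖}) hn
        (isClosed_le (by fun_prop) (by fun_prop)) (hE y)
    have h2 : ‖ψ k‖ ≤ 1 / 5 := (ψ k).opNorm_le_bound (by norm_num) fun y => by
      have a1 := norm_sub_norm_le (ψ k y) (ψ k (T y))
      rw [norm_sub_rev] at a1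
      have a2 := hP k y
      have a3 := mul_le_mul_of_nonneg_right hck (norm_nonneg y)
      have a4 := h1 y
      linarith
    have := hψ k
    linarith
  have g0 : 0 < ‖ψ k (T y0)‖ := lt_of_le_of_lt (by positivity) hg
  have g1 : ψ k (T y0) ≠ 0 := norm_pos_iff.1 g0
  refine ⟨(ψ k (T y0))⁻¹ • T y0, (ψ k).comp T, ?_, ?_, fun i hi => ?_, fun i hi => ?_,
    fun y B hB => ?_⟩
  · rw [hT y0]
    exact Submodule.smul_mem _ _ (sub_mem hy0 (Submodule.sum_mem _ fun i hi =>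
      Submodule.smul_mem _ _ ⟨C i, hC i (mem_range.1 hi)⟩))
  · rw [map_smul, ContinuousLinearMap.comp_apply, hTT, smul_eq_mul, inv_mul_cancel₀ g1]
  · rw [ContinuousLinearMap.comp_apply, hTx i hi, map_zero]
  · rw [map_smul, hfT i hi, smul_zero]
  · have B0 : 0 ≤ B := by simpa using (norm_nonneg _).trans (hB 0)
    have y0' := norm_nonneg y
    have a1 : ‖(ψ k (T y0))⁻¹ • T y0‖ ≤ 10 * (‖T‖ + 1) := by
      rw [norm_smul, norm_inv, inv_mul_le_iff₀ g0]
      have b1 := T.le_opNorm y0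
      have b2 := mul_le_mul_of_nonneg_left hg.le T0
      nlinarith
    have a2 : ‖ψ k (T y)‖ ≤ (1 / 2) ^ k * ((1 + c) * (B + ‖y‖)) := by
      have b1 := norm_sub_norm_le (ψ k (T y)) (ψ k y)
      have b2 := hP k y
      have b3 := hB k
      have b4 : 0 ≤ (1 / 2 : ℝ) ^ k * (c * B + ‖y‖) := by positivity
      nlinarith
    rw [ContinuousLinearMap.comp_apply]
    refine (mul_le_mul a2 a1 (norm_nonneg _) (by positivity)).trans ?_
    have := mul_le_mul_of_nonneg_right hk.le (add_nonneg B0 y0')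
    linarith

theorem biorth {ψ : ℕ → X →L[𝕜] 𝕜} (hψ : ∀ n, 2 / 5 ≤ ‖ψ n‖) (hE : Dense (fast ψ : Set X)) :
    ∃ (x : ℕ → X) (f : ℕ → X →L[𝕜] 𝕜), (∀ i j, f i (x j) = if i = j then 1 else 0) ∧
      ∀ n y, ∀ C : ℝ, (∀ k, ‖ψ k y‖ ≤ C * (1 / 2) ^ k) →
        ‖f n y‖ * ‖x n‖ ≤ (1 / 2) ^ n * (C + ‖y‖) := by
  obtain ⟨a, ha⟩ := rec_exists (α := X × (X →L[𝕜] 𝕜)) (0, 0) (fun n u => ∀ i < n,
    (u i).1 ∈ fast ψ ∧ (∀ j < n, (u i).2 (u j).1 = if i = j then 1 else 0) ∧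
      ∀ y, ∀ C : ℝ, (∀ k, ‖ψ k y‖ ≤ C * (1 / 2) ^ k) →
        ‖(u i).2 y‖ * ‖(u i).1‖ ≤ (1 / 2) ^ i * (C + ‖y‖))
    (fun u i hi => absurd hi (by omega)) (fun n u hu => by
      obtain ⟨x', f', h1, h2, h3, h4, h5⟩ := step hψ hE n (fun i => (u i).1) (fun i => (u i).2)
        (fun i hi => (hu i hi).1) fun i hi => (hu i hi).2.1
      refine ⟨(x', f'), fun i hi => ?_⟩
      rcases (Nat.lt_succ_iff.1 hi).lt_or_eq with h | rfl
      · rw [Function.update_of_ne h.ne]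
        refine ⟨(hu i h).1, fun j hj => ?_, (hu i h).2.2⟩
        rcases (Nat.lt_succ_iff.1 hj).lt_or_eq with h' | rfl
        · rw [Function.update_of_ne h'.ne]
          exact (hu i h).2.1 j h'
        · rw [Function.update_self, if_neg h.ne]
          exact h4 i h
      · rw [Function.update_self]
        refine ⟨h1, fun j hj => ?_, h5⟩
        rcases (Nat.lt_succ_iff.1 hj).lt_or_eq with h' | rfl
        · rw [Function.update_of_ne h'.ne, if_neg h'.ne']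
          exact h3 j h'
        · rw [Function.update_self, if_pos rfl]
          exact h2)
  refine ⟨fun i => (a i).1, fun i => (a i).2, fun i j => ?_, fun n => ?_⟩
  · obtain ⟨u, h1, h2⟩ := ha (i + j + 1)
    have := (h1 i (by omega)).2.1 j (by omega)
    rwa [h2 i (by omega), h2 j (by omega)] at this
  · obtain ⟨u, h1, h2⟩ := ha (n + 1)
    have := (h1 n (by omega)).2.2
    rwa [h2 n (by omega)] at this

end SQA

theorem sq_of_seq {𝕜 X : Type*} [RCLike 𝕜] [NormedAddCommGroup X] [NormedSpace 𝕜 X]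
    [CompleteSpace X] (ψ : ℕ → X →L[𝕜] 𝕜) (hψ : ∀ n, 2 / 5 ≤ ‖ψ n‖) (D : Set X) (hD : Dense D)
    (h : ∀ x ∈ D, ∀ᶠ n in atTop, ‖ψ n x‖ ≤ (1 / 2 : ℝ) ^ n) :
    ∃ M : Submodule 𝕜 X, IsClosed (M : Set X) ∧ TopologicalSpace.SeparableSpace (X ⧸ M) ∧
      ¬ FiniteDimensional 𝕜 (X ⧸ M) := by
  have hE : Dense (SQA.fast ψ : Set X) := hD.mono fun x hx => SQA.mem_fast (h x hx)
  obtain ⟨x, f, hb, hs⟩ := SQA.biorth hψ hE
  obtain ⟨M, hM⟩ : ∃ M : Submodule 𝕜 X, ∀ y, y ∈ M ↔ ∀ n, f n y = 0 :=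
    ⟨⨅ n, (f n : X →ₗ[𝕜] 𝕜).ker, fun y => by simp⟩
  refine ⟨M, ?_, ?_, fun hfin => ?_⟩
  · have e : (M : Set X) = ⋂ n, {y | f n y = 0} := by
      ext y
      simp [hM]
    rw [e]
    exact isClosed_iInter fun n => isClosed_eq (f n).continuous continuous_const
  · have hq : Continuous M.mkQ := continuous_quot_mk
    have h1 : TopologicalSpace.IsSeparable
        (M.mkQ '' closure (Submodule.span 𝕜 (Set.range x) : Set X)) :=
      ((Set.countable_range x).isSeparable.span.closure).image hq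
    have h2 : Dense (M.mkQ '' (SQA.fast ψ : Set X)) :=
      (M.mkQ_surjective.denseRange).dense_image hq hE
    rw [← TopologicalSpace.isSeparable_univ_iff, ← h2.closure_eq]
    refine (h1.mono ?_).closure
    rintro _ ⟨y, ⟨C, hC⟩, rfl⟩
    have h3 : Summable fun n => f n y • x n :=
      Summable.of_norm_bounded (summable_geometric_two.mul_right (C + ‖y‖)) fun n => by
        rw [norm_smul]
        exact hs n y C hC
    refine ⟨∑' n, f n y • x n, ?_, ?_⟩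
    · exact mem_closure_of_tendsto h3.hasSum (Eventually.of_forall fun s =>
        Submodule.sum_mem _ fun n _ =>
          Submodule.smul_mem _ _ (Submodule.subset_span ⟨n, rfl⟩))
    · rw [Submodule.mkQ_apply, Submodule.mkQ_apply, Submodule.Quotient.eq, hM]
      intro n
      rw [map_sub, (f n).map_tsum h3, sub_eq_zero, tsum_eq_single n fun m hm => by
        rw [map_smul, hb, if_neg hm.symm, smul_zero], map_smul, hb, if_pos rfl, smul_eq_mul,
        mul_one]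
  · refine Module.Finite.not_linearIndependent_of_infinite (R := 𝕜) (fun n => M.mkQ (x n))
      (LinearIndependent.of_pairwise_dual_eq_zero_one _
        (fun n => M.liftQ (f n : X →ₗ[𝕜] 𝕜) fun y hy => (hM y).1 hy n) (fun i j hij => ?_)
        fun i => ?_)
    · exact (hb i j).trans (if_neg hij)
    · exact (hb i i).trans (if_pos rfl)

end Vale.Agent.P129
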