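import Vale.Agent.P129.JDefs

/-! One level of the tree. -/

namespace Vale.Agent.P129

open Filter Topology

variable {𝕜 X : Type*} [RCLike 𝕜] [NormedAddCommGroup X] [NormedSpace 𝕜 X]

theorem step (θ : ℕ → X →L[𝕜] 𝕜) (R : ℝ) (hR : ∀ k, ‖θ k‖ ≤ R) {δ ε : ℝ} (hδ : 0 < δ)
    (hS : Star 𝕜 X ε) (hsp : Spread θ δ) (ι : Type) [Fintype ι] [Nonempty ι] (e : ι → ℕ → ℕ)
    (he : ∀ t, Tendsto (e t) atTop atTop) :
    ∃ (x : X) (s : ι × Bool → ℕ → ℕ) (α : ι × Bool → 𝕜), ‖x‖ ≤ 1 ∧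
      (∀ p, Tendsto (s p) atTop atTop) ∧
      (∀ p, Tendsto (fun j => θ (e p.1 (s p j)) x) atTop (𝓝 (α p))) ∧
      ε * (Fintype.card ι * δ) ≤ ‖∑ t, (α (t, true) - α (t, false))‖ := by
  classical
  choose s s' hs hn using hsp ι e he
  have hr : (0 : ℝ) < Fintype.card ι * δ := by
    have : (0 : ℝ) < Fintype.card ι := by exact_mod_cast Fintype.card_pos
    positivity
  obtain ⟨x, hx, hfr⟩ := hS (fun j => ∑ t, (θ (e t (s j t)) - θ (e t (s' j t)))) _ hr hn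
  let σ : ι × Bool → ℕ → ℕ := fun p j => if p.2 then s j p.1 else s' j p.1
  have hσ : ∀ p j, j ≤ σ p j := by
    rintro ⟨t, b⟩ j
    cases b
    · exact (hs j t).2
    · exact (hs j t).1
  let v : ℕ → ι × Bool → 𝕜 := fun j p => θ (e p.1 (σ p j)) x
  have hR0 : 0 ≤ R := (norm_nonneg _).trans (hR 0)
  let A : Set (ι × Bool → 𝕜) :=
    {w | ε * (Fintype.card ι * δ) ≤ ‖∑ t, (w (t, true) - w (t, false))‖}
  have hA : IsClosed A := isClosed_le continuous_const (by fun_prop)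
  have hK : IsCompact (Metric.closedBall (0 : ι × Bool → 𝕜) R ∩ A) :=
    (isCompact_closedBall 0 R).inter_right hA
  have hv : ∃ᶠ j in atTop, v j ∈ Metric.closedBall (0 : ι × Bool → 𝕜) R ∩ A := by
    refine hfr.mono fun j hj => ⟨?_, ?_⟩
    · rw [mem_closedBall_zero_iff, pi_norm_le_iff_of_nonneg hR0]
      intro p
      refine ((θ _).le_opNorm x).trans ?_
      exact (mul_le_mul (hR _) hx (norm_nonneg _) hR0).trans (mul_one R).le
    · refine hj.le.trans (le_of_eq ?_)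
      simp [v, σ]
  obtain ⟨α, hα, φ, hφ, hlim⟩ := hK.tendsto_subseq' hv
  refine ⟨x, fun p j => σ p (φ j), α, hx, fun p => ?_, fun p => ?_, hα.2⟩
  · exact tendsto_atTop_mono (fun j => (hφ.le_apply).trans (hσ p _)) tendsto_id
  · exact tendsto_pi_nhds.1 hlim p

end Vale.Agent.P129
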