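import Vale.Agent.P129.Step

/-! The tree of subsequences. -/

namespace Vale.Agent.P129

open Filter Topology

variable {𝕜 X : Type*} [RCLike 𝕜] [NormedAddCommGroup X] [NormedSpace 𝕜 X]

theorem tree (θ : ℕ → X →L[𝕜] 𝕜) (R : ℝ) (hR : ∀ k, ‖θ k‖ ≤ R) {δ ε : ℝ} (hδ : 0 < δ)
    (hS : Star 𝕜 X ε) (hsp : Spread θ δ) :
    ∃ (e : (m : ℕ) → Node m → ℕ → ℕ) (x : ℕ → X), (∀ n, ‖x n‖ ≤ 1) ∧ ∀ m n, n < m →
      ∃ val : Node m → 𝕜, (∀ t, Tendsto (fun j => θ (e m t j) (x n)) atTop (𝓝 (val t))) ∧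
        2 ^ m * (ε * δ / 2) ≤ ‖∑ t, rad 𝕜 m n t * val t‖ := by
  have hst := fun (m : ℕ) (e : {e : Node m → ℕ → ℕ // ∀ t, Tendsto (e t) atTop atTop}) =>
    step θ R hR hδ hS hsp (Node m) e.1 e.2
  choose x s α h1 h2 h3 h4 using hst
  let E : (m : ℕ) → {e : Node m → ℕ → ℕ // ∀ t, Tendsto (e t) atTop atTop} := fun m =>
    Nat.rec (motive := fun m => {e : Node m → ℕ → ℕ // ∀ t, Tendsto (e t) atTop atTop})
      ⟨fun _ j => j, fun _ => tendsto_id⟩
      (fun m e => ⟨fun p j => e.1 p.1 (s m e p j), fun p => (e.2 p.1).comp (h2 m e p)⟩) m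
  have hE : ∀ m (p : Node m × Bool) j, (E (m + 1)).1 p j = (E m).1 p.1 (s m (E m) p j) :=
    fun _ _ _ => rfl
  refine ⟨fun m => (E m).1, fun n => x n (E n), fun n => h1 n (E n), fun m => ?_⟩
  induction m with
  | zero => exact fun n hn => absurd hn (Nat.not_lt_zero n)
  | succ m ih =>
    intro n hn
    rcases (Nat.lt_succ_iff.1 hn).lt_or_eq with h | h
    · obtain ⟨val, hv, hs⟩ := ih n h
      refine ⟨fun p => val p.1, fun p => (hv p.1).comp (h2 m (E m) p), ?_⟩
      rw [sum_node_succ]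
      have e1 : ∀ (t : Node m) (b : Bool), rad 𝕜 (m + 1) n (t, b) = rad 𝕜 m n t := fun t b =>
        if_neg h.ne
      have e2 : ∑ t : Node m, (rad 𝕜 (m + 1) n (t, true) * val t +
          rad 𝕜 (m + 1) n (t, false) * val t) = 2 * ∑ t, rad 𝕜 m n t * val t := by
        rw [Finset.mul_sum]
        exact Finset.sum_congr rfl fun t _ => by rw [e1, e1, two_mul]
      refine le_trans ?_ (le_of_eq (congrArg norm e2.symm))
      rw [norm_mul, RCLike.norm_two, pow_succ]
      linarith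
    · subst h
      refine ⟨α n (E n), fun p => h3 n (E n) p, ?_⟩
      rw [sum_node_succ]
      have e1 : ∀ t : Node n, rad 𝕜 (n + 1) n (t, true) = 1 := fun t => if_pos rfl
      have e2 : ∀ t : Node n, rad 𝕜 (n + 1) n (t, false) = -1 := fun t => if_pos rfl
      have e3 : ∑ t : Node n, (rad 𝕜 (n + 1) n (t, true) * α n (E n) (t, true) +
          rad 𝕜 (n + 1) n (t, false) * α n (E n) (t, false)) =
          ∑ t, (α n (E n) (t, true) - α n (E n) (t, false)) :=
        Finset.sum_congr rfl fun t _ => by rw [e1, e2]; ring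
      have h5 := h4 n (E n)
      rw [card_node] at h5
      push_cast at h5
      refine le_trans ?_ (le_of_eq (congrArg norm e3.symm))
      rw [pow_succ]
      linarith

end Vale.Agent.P129
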